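import Vale.Agent.P139.R2.H836.Div

/-!
# P139: derivatives of the divisors

`DF k c i` is the `i`-th derivative of `μ ↦ ∑ k_m om μ m + c`. Some derivative of order between `1` and
the number of terms is bounded below by an explicit constant.
-/

set_option autoImplicit false

namespace Vale.Agent.P139.R2D

open Set Filter Topology MeasureTheory ProbabilityTheory
open Vale.Agent.P139.H212

/-- The product of `1 - 2 l`, `l < i`. -/
noncomputable def dc (i : ℕ) : ℝ := ∏ l ∈ Finset.range i, (1 - 2 * (l : ℝ))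

/-- `1 / (m + 2 μ)`. -/
noncomputable def xx (μ : ℝ) (m : ℕ) : ℝ := ((m : ℝ) + 2 * μ)⁻¹

/-- The `i`-th derivative of the divisor. -/
noncomputable def DF (k : ℕ →₀ ℤ) (c : ℤ) (i : ℕ) (μ : ℝ) : ℝ :=
  dc i * (k.sum fun m x => (x : ℝ) * (om μ m * xx μ m ^ i)) + if i = 0 then (c : ℝ) else 0

theorem DF_zero (k : ℕ →₀ ℤ) (c : ℤ) (μ : ℝ) : DF k c 0 μ = dv μ k c := by
  unfold DF dv dc
  simp

theorem DF_pos (k : ℕ →₀ ℤ) (c : ℤ) {i : ℕ} (hi : 1 ≤ i) (μ : ℝ) :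
    DF k c i μ = dc i * (k.sum fun m x => (x : ℝ) * (om μ m * xx μ m ^ i)) := by
  unfold DF
  rw [if_neg (by omega), add_zero]

theorem hasDerivAt_term {m : ℕ} (hm : 1 ≤ m) {μ : ℝ} (hμ : 0 ≤ μ) (i : ℕ) :
    HasDerivAt (fun μ => om μ m * xx μ m ^ i)
      ((1 - 2 * (i : ℝ)) * (om μ m * xx μ m ^ (i + 1))) μ := by
  have hm' : (1 : ℝ) ≤ m := by exact_mod_cast hm
  have hp : (0 : ℝ) < m + 2 * μ := by linarith
  have hpos : (0 : ℝ) < m * (m + 2 * μ) := by positivity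
  have h1 : HasDerivAt (fun μ : ℝ => (m : ℝ) + 2 * μ) 2 μ := by
    simpa using ((hasDerivAt_id μ).const_mul 2).const_add (m : ℝ)
  have h2 : HasDerivAt (fun μ => om μ m) (om μ m * xx μ m) μ := by
    have h3 := (h1.const_mul (m : ℝ)).sqrt hpos.ne'
    unfold om
    refine h3.congr_deriv ?_
    unfold xx
    have h4 : Real.sqrt (m * (m + 2 * μ)) ≠ 0 := (Real.sqrt_pos.2 hpos).ne'
    rw [div_eq_iff (by positivity), mul_comm (Real.sqrt _) (_⁻¹), mul_assoc]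
    rw [show Real.sqrt (m * (m + 2 * μ)) * (2 * Real.sqrt (m * (m + 2 * μ)))
      = 2 * (Real.sqrt (m * (m + 2 * μ)) * Real.sqrt (m * (m + 2 * μ))) by ring,
      Real.mul_self_sqrt hpos.le]
    field_simp
  have h5 : HasDerivAt (fun μ => xx μ m) (-2 * xx μ m ^ 2) μ := by
    have h6 := h1.inv hp.ne'
    unfold xx
    refine h6.congr_deriv ?_
    rw [inv_pow]
    ring
  have h7 := h2.mul (h5.pow i)
  refine h7.congr_deriv ?_
  rcases i with _ | i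
  · simp
  · simp only [Nat.add_sub_cancel, Pi.pow_apply]
    push_cast
    ring

theorem dc_succ (i : ℕ) : dc (i + 1) = dc i * (1 - 2 * (i : ℝ)) := by
  unfold dc
  rw [Finset.prod_range_succ]

/-- `DF k c (i + 1)` is the derivative of `DF k c i`. -/
theorem hasDerivAt_DF {k : ℕ →₀ ℤ} (h0 : k 0 = 0) (c : ℤ) (i : ℕ) {μ : ℝ} (hμ : 0 ≤ μ) :
    HasDerivAt (DF k c i) (DF k c (i + 1) μ) μ := by
  have h1 : HasDerivAt (fun μ => ∑ m ∈ k.support, (k m : ℝ) * (om μ m * xx μ m ^ i))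
      (∑ m ∈ k.support, (k m : ℝ) * ((1 - 2 * (i : ℝ)) * (om μ m * xx μ m ^ (i + 1)))) μ := by
    refine HasDerivAt.fun_sum fun m hm => ?_
    have hm1 : 1 ≤ m := by
      rcases Nat.eq_zero_or_pos m with h | h
      · subst h
        exact absurd h0 (Finsupp.mem_support_iff.1 hm)
      · exact h
    exact (hasDerivAt_term hm1 hμ i).const_mul _
  have h2 := (h1.const_mul (dc i)).add_const (if i = 0 then (c : ℝ) else 0)
  have h3 : DF k c (i + 1) μ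
      = dc i * ∑ m ∈ k.support, (k m : ℝ) * ((1 - 2 * (i : ℝ)) * (om μ m * xx μ m ^ (i + 1))) := by
    rw [DF_pos k c (by omega), dc_succ, mul_assoc]
    congr 1
    unfold Finsupp.sum
    rw [Finset.mul_sum]
    exact Finset.sum_congr rfl fun m _ => by ring
  rw [h3]
  exact h2

theorem one_le_abs_odd (l : ℕ) : 1 ≤ |1 - 2 * (l : ℝ)| := by
  rcases Nat.eq_zero_or_pos l with h | h
  · subst h
    simp
  · have : (1 : ℝ) ≤ l := by exact_mod_cast h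
    rw [le_abs]
    right
    linarith

theorem one_le_abs_dc (i : ℕ) : 1 ≤ |dc i| := by
  unfold dc
  rw [Finset.abs_prod]
  have h1 : ∏ _l ∈ Finset.range i, (1 : ℝ) ≤ ∏ l ∈ Finset.range i, |1 - 2 * (l : ℝ)| := by
    refine Finset.prod_le_prod (fun _ _ => zero_le_one) fun l _ => ?_
    exact one_le_abs_odd l
  rwa [Finset.prod_const_one] at h1

theorem abs_dc_le {i : ℕ} (hi : 1 ≤ i) : |dc i| ≤ (2 * (i : ℝ)) ^ i := by
  unfold dc
  rw [Finset.abs_prod]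
  have h1 : ∏ l ∈ Finset.range i, |1 - 2 * (l : ℝ)| ≤ ∏ _l ∈ Finset.range i, (2 * (i : ℝ)) := by
    refine Finset.prod_le_prod (fun l _ => abs_nonneg _) fun l hl => ?_
    have h2 : (l : ℝ) < i := by exact_mod_cast Finset.mem_range.1 hl
    have h3 : (0 : ℝ) ≤ l := Nat.cast_nonneg l
    have h4 : (1 : ℝ) ≤ i := by exact_mod_cast hi
    rw [abs_le]
    constructor <;> linarith
  rwa [Finset.prod_const, Finset.card_range] at h1

theorem xx_nonneg {μ : ℝ} (hμ : 0 ≤ μ) (m : ℕ) : 0 ≤ xx μ m := by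
  unfold xx
  positivity

theorem xx_le_one {μ : ℝ} (hμ : 0 ≤ μ) {m : ℕ} (hm : 1 ≤ m) : xx μ m ≤ 1 := by
  have hm' : (1 : ℝ) ≤ m := by exact_mod_cast hm
  unfold xx
  exact inv_le_one_of_one_le₀ (by linarith)

theorem om_mul_xx_sq {μ : ℝ} (hμ : 0 ≤ μ) {m : ℕ} (hm : 1 ≤ m) :
    (om μ m * xx μ m) ^ 2 = m * xx μ m := by
  have hm' : (1 : ℝ) ≤ m := by exact_mod_cast hm
  have hp : (m : ℝ) + 2 * μ ≠ 0 := by positivity
  rw [mul_pow, om_sq hμ]
  unfold xx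
  field_simp

theorem om_mul_xx_le {μ : ℝ} (hμ : 0 ≤ μ) {m : ℕ} (hm : 1 ≤ m) : om μ m * xx μ m ≤ 1 := by
  have hm' : (1 : ℝ) ≤ m := by exact_mod_cast hm
  have h1 : (m : ℝ) * xx μ m ≤ 1 := by
    unfold xx
    rw [← div_eq_mul_inv, div_le_one (by linarith)]
    linarith
  have h2 := om_mul_xx_sq hμ hm
  have h3 : 0 ≤ om μ m * xx μ m := mul_nonneg (om_nonneg m) (xx_nonneg hμ m)
  nlinarith

theorem le_om_mul_xx {μ : ℝ} (hμ : 0 ≤ μ) {m : ℕ} (hm : 1 ≤ m) :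
    (1 + 2 * μ)⁻¹ ≤ om μ m * xx μ m := by
  have hm' : (1 : ℝ) ≤ m := by exact_mod_cast hm
  have h3 : 0 ≤ om μ m * xx μ m := mul_nonneg (om_nonneg m) (xx_nonneg hμ m)
  apply le_of_sq_le_sq _ h3
  rw [om_mul_xx_sq hμ hm, inv_pow]
  unfold xx
  rw [← div_eq_mul_inv, inv_eq_one_div, div_le_div_iff₀ (by positivity) (by linarith)]
  nlinarith [mul_nonneg (sub_nonneg.2 hm') hμ, mul_nonneg (Nat.cast_nonneg (α := ℝ) m) (sq_nonneg μ)]

theorem xx_sub {μ : ℝ} (hμ : 0 ≤ μ) {n a : ℕ} (hn : 1 ≤ n) (ha : 1 ≤ a) (hne : a ≠ n) :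
    (((n : ℝ) + 1 + 2 * μ) ^ 2)⁻¹ ≤ |xx μ n - xx μ a| := by
  have hn' : (1 : ℝ) ≤ n := by exact_mod_cast hn
  have ha' : (1 : ℝ) ≤ a := by exact_mod_cast ha
  have e : xx μ n - xx μ a = (a - n) / (((n : ℝ) + 2 * μ) * (a + 2 * μ)) := by
    unfold xx
    have h1 : (n : ℝ) + 2 * μ ≠ 0 := by positivity
    have h2 : (a : ℝ) + 2 * μ ≠ 0 := by positivity
    field_simp
    ring
  rw [e, abs_div, abs_of_pos (show 0 < ((n : ℝ) + 2 * μ) * (a + 2 * μ) by positivity),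
    inv_eq_one_div, div_le_div_iff₀ (by positivity) (by positivity), one_mul]
  rcases Nat.lt_or_gt_of_ne hne with h | h
  · have h1 : (a : ℝ) + 1 ≤ n := by exact_mod_cast h
    rw [abs_of_neg (by linarith)]
    nlinarith
  · have h1 : (n : ℝ) + 1 ≤ a := by exact_mod_cast h
    rw [abs_of_pos (by linarith)]
    have h2 : (n : ℝ) + 2 * μ ≤ (n + 1 + 2 * μ) := by linarith
    have h3 : (a : ℝ) + 2 * μ ≤ (a - n) * (n + 1 + 2 * μ) := by nlinarith
    calc ((n : ℝ) + 2 * μ) * (a + 2 * μ) ≤ (n + 1 + 2 * μ) * ((a - n) * (n + 1 + 2 * μ)) := by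
          gcongr
      _ = _ := by ring

/-- The mixed sums. -/
noncomputable def TT (k : ℕ →₀ ℤ) (μ : ℝ) (A : Finset ℕ) (i : ℕ) : ℝ :=
  k.sum fun m x => (x : ℝ) * (om μ m * xx μ m ^ i) * ∏ a ∈ A, (xx μ m - xx μ a)

theorem TT_insert (k : ℕ →₀ ℤ) (μ : ℝ) {A : Finset ℕ} {a : ℕ} (ha : a ∉ A) (i : ℕ) :
    TT k μ (insert a A) i = TT k μ A (i + 1) - xx μ a * TT k μ A i := by
  unfold TT Finsupp.sum
  rw [Finset.mul_sum, ← Finset.sum_sub_distrib]
  refine Finset.sum_congr rfl fun m _ => ?_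
  beta_reduce
  rw [Finset.prod_insert ha]
  ring

theorem TT_bound {k : ℕ →₀ ℤ} {μ : ℝ} (hμ : 0 ≤ μ) {V : ℝ} {n : ℕ}
    (hV : ∀ i, 1 ≤ i → i ≤ n → |TT k μ ∅ i| ≤ V) (A : Finset ℕ) (hA : ∀ a ∈ A, 1 ≤ a) :
    ∀ i, 1 ≤ i → i + A.card ≤ n → |TT k μ A i| ≤ 2 ^ A.card * V := by
  induction A using Finset.induction_on with
  | empty =>
    intro i h1 h2
    rw [Finset.card_empty, pow_zero, one_mul]
    exact hV i h1 (by simpa using h2)
  | insert a A ha ih =>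
    intro i h1 h2
    rw [Finset.card_insert_of_notMem ha] at h2 ⊢
    have h3 := ih (fun b hb => hA b (Finset.mem_insert_of_mem hb))
    have h4 := h3 (i + 1) (by omega) (by omega)
    have h5 := h3 i h1 (by omega)
    rw [TT_insert k μ ha]
    have h6 := xx_nonneg hμ a
    have h7 := xx_le_one hμ (hA a (Finset.mem_insert_self a A))
    have h8 : |xx μ a * TT k μ A i| ≤ 2 ^ A.card * V := by
      rw [abs_mul, abs_of_nonneg h6]
      calc xx μ a * |TT k μ A i| ≤ 1 * |TT k μ A i| := by gcongr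
        _ ≤ _ := by rw [one_mul]; exact h5
    have h9 := abs_sub (TT k μ A (i + 1)) (xx μ a * TT k μ A i)
    rw [pow_succ]
    linarith

/-- **Lower bound of some derivative**, general form. -/
theorem lower_gen {k : ℕ →₀ ℤ} (h0 : k 0 = 0) {n : ℕ} (hn : n ∈ k.support) {μ : ℝ} (hμ : 0 ≤ μ)
    (c : ℤ) : ∃ i, 1 ≤ i ∧ i ≤ k.support.card ∧
      (2 ^ (k.support.card - 1) * (1 + 2 * μ) *
        (((n : ℝ) + 1 + 2 * μ) ^ 2) ^ (k.support.card - 1))⁻¹ ≤ |DF k c i μ| := by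
  by_contra hcon
  push Not at hcon
  set s := k.support.card with hs
  set V : ℝ := (2 ^ (s - 1) * (1 + 2 * μ) * (((n : ℝ) + 1 + 2 * μ) ^ 2) ^ (s - 1))⁻¹ with hVdef
  have hone : ∀ m ∈ k.support, 1 ≤ m := by
    intro m hm
    rcases Nat.eq_zero_or_pos m with h | h
    · subst h
      exact absurd h0 (Finsupp.mem_support_iff.1 hm)
    · exact h
  have hn1 := hone n hn
  have hs1 : 1 ≤ s := Finset.card_pos.2 ⟨n, hn⟩
  -- strict bound with a maximum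
  have hT : ∀ i, 1 ≤ i → i ≤ s → |TT k μ ∅ i| < V := by
    intro i h1 h2
    refine lt_of_le_of_lt ?_ (hcon i h1 h2)
    rw [DF_pos k c h1, abs_mul]
    have e : (k.sum fun m x => (x : ℝ) * (om μ m * xx μ m ^ i)) = TT k μ ∅ i := by
      unfold TT
      simp
    rw [e]
    have := one_le_abs_dc i
    have h3 := abs_nonneg (TT k μ ∅ i)
    nlinarith
  obtain ⟨V', hV'1, hV'2⟩ : ∃ V' : ℝ, V' < V ∧ ∀ i, 1 ≤ i → i ≤ s → |TT k μ ∅ i| ≤ V' := by
    have hne : (Finset.Icc 1 s).Nonempty := ⟨1, by simp [hs1]⟩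
    obtain ⟨i, hi, hmax⟩ := Finset.exists_max_image (Finset.Icc 1 s) (fun i => |TT k μ ∅ i|) hne
    refine ⟨|TT k μ ∅ i|, ?_, fun j h1 h2 => hmax j (Finset.mem_Icc.2 ⟨h1, h2⟩)⟩
    exact hT i (Finset.mem_Icc.1 hi).1 (Finset.mem_Icc.1 hi).2
  have hcard : (k.support.erase n).card = s - 1 := Finset.card_erase_of_mem hn
  have h1 := TT_bound hμ hV'2 (k.support.erase n)
    (fun a ha => hone a (Finset.mem_of_mem_erase ha)) 1 le_rfl (by omega)
  -- the value of the mixed sum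
  have h2 : TT k μ (k.support.erase n) 1
      = (k n : ℝ) * (om μ n * xx μ n) * ∏ a ∈ k.support.erase n, (xx μ n - xx μ a) := by
    unfold TT Finsupp.sum
    rw [← Finset.add_sum_erase _ _ hn, Finset.sum_eq_zero, add_zero]
    · beta_reduce
      rw [pow_one]
    intro m hm
    beta_reduce
    rw [Finset.prod_eq_zero hm (sub_self _), mul_zero]
  have h3 : (1 : ℝ) ≤ |(k n : ℝ)| := by
    have : (1 : ℤ) ≤ |k n| := Int.one_le_abs (Finsupp.mem_support_iff.1 hn)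
    exact_mod_cast this
  have h4 := le_om_mul_xx hμ hn1
  have h5 : ((((n : ℝ) + 1 + 2 * μ) ^ 2)⁻¹) ^ (s - 1)
      ≤ |∏ a ∈ k.support.erase n, (xx μ n - xx μ a)| := by
    rw [Finset.abs_prod, ← hcard, ← Finset.prod_const]
    refine Finset.prod_le_prod (fun a _ => by positivity) fun a ha => ?_
    exact xx_sub hμ hn1 (hone a (Finset.mem_of_mem_erase ha)) (Finset.ne_of_mem_erase ha)
  have h6 : (1 + 2 * μ)⁻¹ * ((((n : ℝ) + 1 + 2 * μ) ^ 2)⁻¹) ^ (s - 1)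
      ≤ |TT k μ (k.support.erase n) 1| := by
    rw [h2, abs_mul, abs_mul]
    have h7 : (0 : ℝ) ≤ om μ n * xx μ n := mul_nonneg (om_nonneg n) (xx_nonneg hμ n)
    rw [abs_of_nonneg h7]
    have h8 : (1 + 2 * μ)⁻¹ ≤ |(k n : ℝ)| * (om μ n * xx μ n) := by nlinarith
    exact mul_le_mul h8 h5 (by positivity) (by positivity)
  rw [hcard] at h1
  have h9 : (1 + 2 * μ)⁻¹ * ((((n : ℝ) + 1 + 2 * μ) ^ 2)⁻¹) ^ (s - 1) < 2 ^ (s - 1) * V := by
    refine lt_of_le_of_lt (h6.trans h1) ?_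
    have : (0 : ℝ) < 2 ^ (s - 1) := by positivity
    nlinarith
  have h10 : 2 ^ (s - 1) * V = (1 + 2 * μ)⁻¹ * ((((n : ℝ) + 1 + 2 * μ) ^ 2)⁻¹) ^ (s - 1) := by
    rw [hVdef, mul_inv, mul_inv, inv_pow, ← mul_assoc, ← mul_assoc,
      mul_inv_cancel₀ (by positivity), one_mul]
  linarith

/-- **Lower bound of some derivative.** -/
theorem lower {k : ℕ →₀ ℤ} (h0 : k 0 = 0) {N n : ℕ} (hN : 1 ≤ N) (hn : n ∈ k.support)
    (hn4 : n < 4 ^ (N + 8)) (hk : (k.support.card : ℕ) ≤ 10 * N) {μ : ℝ} (hμ : 0 ≤ μ)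
    (hμN : μ ≤ N) (c : ℤ) : ∃ i, 1 ≤ i ∧ i ≤ 10 * N ∧
      ((2 : ℝ) ^ (412 * N ^ 2))⁻¹ ≤ |DF k c i μ| := by
  obtain ⟨i, h1, h2, h3⟩ := lower_gen h0 hn hμ c
  refine ⟨i, h1, h2.trans hk, le_trans ?_ h3⟩
  have hs1 : 1 ≤ k.support.card := Finset.card_pos.2 ⟨n, hn⟩
  apply inv_anti₀ (by positivity)
  have e1 : (1 : ℝ) + 2 * μ ≤ 2 ^ (N + 1) := by
    have : (N : ℝ) + 1 ≤ 2 ^ N := by
      have := Nat.lt_two_pow_self (n := N)
      exact_mod_cast this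
    rw [pow_succ]
    linarith
  have e2 : ((n : ℝ) + 1 + 2 * μ) ^ 2 ≤ 2 ^ (4 * N + 36) := by
    have e3 : (n : ℝ) + 1 ≤ 4 ^ (N + 8) := by exact_mod_cast hn4
    have e4 : (N : ℝ) + 1 ≤ 4 ^ (N + 8) := by
      have h5 : N + 1 ≤ 2 ^ N := Nat.lt_two_pow_self
      have h6 : 2 ^ N ≤ 4 ^ N := Nat.pow_le_pow_left (by norm_num) N
      have h7 : 4 ^ N ≤ 4 ^ (N + 8) := Nat.pow_le_pow_right (by norm_num) (by omega)
      exact_mod_cast (h5.trans h6).trans h7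
    have e5 : (n : ℝ) + 1 + 2 * μ ≤ 4 ^ (N + 9) := by
      rw [show (4 : ℝ) ^ (N + 9) = 4 * 4 ^ (N + 8) by ring]
      linarith
    calc ((n : ℝ) + 1 + 2 * μ) ^ 2 ≤ (4 ^ (N + 9)) ^ 2 := by gcongr
      _ = 2 ^ (4 * N + 36) := by
        rw [show (4 : ℝ) = 2 ^ 2 by norm_num, ← pow_mul, ← pow_mul]
        congr 1
        ring
  have h2' : (1 : ℝ) ≤ 2 := by norm_num
  calc (2 : ℝ) ^ (k.support.card - 1) * (1 + 2 * μ) *
        (((n : ℝ) + 1 + 2 * μ) ^ 2) ^ (k.support.card - 1)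
      ≤ 2 ^ (10 * N) * 2 ^ (N + 1) * (2 ^ (4 * N + 36)) ^ (10 * N) := by
        have e6 : (2 : ℝ) ^ (k.support.card - 1) ≤ 2 ^ (10 * N) := pow_le_pow_right₀ h2' (by omega)
        have e7 : (((n : ℝ) + 1 + 2 * μ) ^ 2) ^ (k.support.card - 1)
            ≤ (2 ^ (4 * N + 36)) ^ (10 * N) := by
          calc (((n : ℝ) + 1 + 2 * μ) ^ 2) ^ (k.support.card - 1)
              ≤ (2 ^ (4 * N + 36)) ^ (k.support.card - 1) := by gcongr
            _ ≤ _ := pow_le_pow_right₀ (one_le_pow₀ h2') (by omega)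
        gcongr
    _ = 2 ^ (10 * N + (N + 1) + (4 * N + 36) * (10 * N)) := by
        rw [← pow_mul, ← pow_add, ← pow_add]
    _ ≤ 2 ^ (412 * N ^ 2) := by
        apply pow_le_pow_right₀ h2'
        nlinarith

/-- Upper bound of the derivatives. -/
theorem upper_gen {k : ℕ →₀ ℤ} (h0 : k 0 = 0) {μ : ℝ} (hμ : 0 ≤ μ) (c : ℤ) {i : ℕ} (hi : 1 ≤ i) :
    |DF k c i μ| ≤ (2 * (i : ℝ)) ^ i * (k.sum fun _ x => |(x : ℝ)|) := by
  rw [DF_pos k c hi, abs_mul]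
  refine mul_le_mul (abs_dc_le hi) ?_ (abs_nonneg _) (by positivity)
  unfold Finsupp.sum
  refine (Finset.abs_sum_le_sum_abs _ _).trans (Finset.sum_le_sum fun m hm => ?_)
  have hm1 : 1 ≤ m := by
    rcases Nat.eq_zero_or_pos m with h | h
    · subst h
      exact absurd h0 (Finsupp.mem_support_iff.1 hm)
    · exact h
  rw [abs_mul]
  have h1 : |om μ m * xx μ m ^ i| ≤ 1 := by
    obtain ⟨j, rfl⟩ := Nat.exists_eq_add_of_le hi
    have h2 := om_mul_xx_le hμ hm1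
    have h3 := xx_nonneg hμ m
    have h4 := xx_le_one hμ hm1
    have h5 : 0 ≤ om μ m * xx μ m := mul_nonneg (om_nonneg m) h3
    have e : om μ m * xx μ m ^ (1 + j) = (om μ m * xx μ m) * xx μ m ^ j := by ring
    rw [e, abs_of_nonneg (by positivity)]
    exact mul_le_one₀ h2 (by positivity) (pow_le_one₀ h3 h4)
  calc |(k m : ℝ)| * |om μ m * xx μ m ^ i| ≤ |(k m : ℝ)| * 1 := by gcongr
    _ = _ := mul_one _

/-- **Upper bound of the derivatives of order `≤ 10 N + 1`.** -/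
theorem upper {k : ℕ →₀ ℤ} (h0 : k 0 = 0) {N : ℕ} (hN : 1 ≤ N)
    (hk : (k.sum fun _ x => |x|) ≤ 10 * N) {μ : ℝ} (hμ : 0 ≤ μ) (c : ℤ) {i : ℕ} (hi : 1 ≤ i)
    (hi' : i ≤ 10 * N + 1) : |DF k c i μ| ≤ 2 ^ (71 * N ^ 2) := by
  refine (upper_gen h0 hμ c hi).trans ?_
  have hk' : (k.sum fun _ x => |(x : ℝ)|) ≤ 10 * N := by
    have : (((k.sum fun _ x => |x|) : ℤ) : ℝ) ≤ 10 * N := by exact_mod_cast hk
    unfold Finsupp.sum at this ⊢
    push_cast at this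
    exact this
  have hNN : (N : ℝ) + 1 ≤ 2 ^ N := by
    have := Nat.lt_two_pow_self (n := N)
    exact_mod_cast this
  have hN' : (1 : ℝ) ≤ N := by exact_mod_cast hN
  have h2' : (1 : ℝ) ≤ 2 := by norm_num
  have e1 : 2 * (i : ℝ) ≤ 2 ^ (N + 5) := by
    have : (i : ℝ) ≤ 10 * N + 1 := by exact_mod_cast hi'
    rw [pow_add]
    linarith
  have e2 : (10 : ℝ) * N ≤ 2 ^ (N + 4) := by
    rw [pow_add]
    linarith
  calc (2 * (i : ℝ)) ^ i * (k.sum fun _ x => |(x : ℝ)|)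
      ≤ (2 ^ (N + 5)) ^ (10 * N + 1) * 2 ^ (N + 4) := by
        have e3 : (2 * (i : ℝ)) ^ i ≤ (2 ^ (N + 5)) ^ (10 * N + 1) := by
          calc (2 * (i : ℝ)) ^ i ≤ (2 ^ (N + 5)) ^ i := by gcongr
            _ ≤ _ := pow_le_pow_right₀ (one_le_pow₀ h2') hi'
        exact mul_le_mul e3 (hk'.trans e2) (by
          unfold Finsupp.sum
          exact Finset.sum_nonneg fun _ _ => abs_nonneg _) (by positivity)
    _ = 2 ^ ((N + 5) * (10 * N + 1) + (N + 4)) := by rw [← pow_mul, ← pow_add]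
    _ ≤ 2 ^ (71 * N ^ 2) := by
        apply pow_le_pow_right₀ h2'
        nlinarith

end Vale.Agent.P139.R2D
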