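import Vale.Agent.P139.R2.H36.Sub
import Vale.Agent.P139.R2.H836.Der
import Vale.Agent.P139.R2.H959.NRDef

/-!
# P139, row R1c (D): the measure of the small divisor sets
-/

set_option autoImplicit false

namespace Vale.Agent.P139.R2D

open Set Filter Topology MeasureTheory ProbabilityTheory
open Vale.Agent.P139.H212

theorem comb_support {q : ℕ} (s : Fin q → ℤ) (m : Fin q → ℕ) :
    (comb s m).support ⊆ Finset.univ.image m := by
  intro a ha
  rw [Finsupp.mem_support_iff, comb_apply] at ha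
  obtain ⟨i, -, hi⟩ := Finset.exists_ne_zero_of_sum_ne_zero ha
  rw [Finset.mem_image]
  refine ⟨i, Finset.mem_univ i, ?_⟩
  by_contra h
  rw [if_neg h] at hi
  exact hi rfl

theorem comb_card_le {q : ℕ} (s : Fin q → ℤ) (m : Fin q → ℕ) : (comb s m).support.card ≤ q := by
  refine (Finset.card_le_card (comb_support s m)).trans (Finset.card_image_le.trans ?_)
  simp

theorem comb_abs_le {q : ℕ} (s : Fin q → ℤ) (m : Fin q → ℕ) (hs : ∀ i, |s i| ≤ 1) :
    ((comb s m).sum fun _ x => |x|) ≤ q := by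
  unfold Finsupp.sum
  calc ∑ a ∈ (comb s m).support, |comb s m a|
      ≤ ∑ a ∈ (comb s m).support, ∑ i, if m i = a then (1 : ℤ) else 0 := by
        refine Finset.sum_le_sum fun a _ => ?_
        rw [comb_apply]
        refine (Finset.abs_sum_le_sum_abs _ _).trans (Finset.sum_le_sum fun i _ => ?_)
        split_ifs
        · exact hs i
        · simp
    _ = ∑ i, ∑ a ∈ (comb s m).support, if m i = a then (1 : ℤ) else 0 := Finset.sum_comm
    _ ≤ ∑ _i : Fin q, (1 : ℤ) := by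
        refine Finset.sum_le_sum fun i _ => ?_
        rw [Finset.sum_ite_eq]
        split_ifs <;> norm_num
    _ = q := by simp

theorem comb_zero_level {q : ℕ} (s : Fin q → ℤ) (m : Fin q → ℕ) (hm : ∀ i, 1 ≤ m i) :
    comb s m 0 = 0 := by
  rw [comb_apply]
  refine Finset.sum_eq_zero fun i _ => ?_
  have := hm i
  rw [if_neg (by omega)]

/-- The integer sign. -/
def sg (b : Bool) : ℤ := if b then 1 else -1

theorem abs_sg (b : Bool) : |sg b| ≤ 1 := by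
  cases b <;> simp [sg]

theorem ss_eq (μ : ℝ) {j : ℕ} (s : Fin j → Bool) (lv : Fin j → ℕ) :
    R2N.ss μ s lv = dv μ (comb (fun l => sg (s l)) lv) 0 := by
  rw [dv_comb]
  unfold R2N.ss
  refine Finset.sum_congr rfl fun l _ => ?_
  cases h : s l <;> simp [sg]

theorem comb_sg_apply {j : ℕ} (s : Fin j → Bool) (lv : Fin j → ℕ) (ν : ℕ) :
    comb (fun l => sg (s l)) lv ν =
      ((Finset.univ.filter fun l => s l = true ∧ lv l = ν).card : ℤ) -
        ((Finset.univ.filter fun l => s l = false ∧ lv l = ν).card : ℤ) := by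
  rw [comb_apply, Finset.card_filter, Finset.card_filter]
  push_cast
  rw [← Finset.sum_sub_distrib]
  refine Finset.sum_congr rfl fun l _ => ?_
  cases h : s l <;> by_cases h' : lv l = ν <;> simp [sg, h']

theorem comb_sg_ne {j : ℕ} {s : Fin j → Bool} {lv : Fin j → ℕ} {ν : ℕ} (h : ¬ R2N.BalAt s lv ν) :
    comb (fun l => sg (s l)) lv ν ≠ 0 := by
  rw [comb_sg_apply]
  intro h0
  apply h
  unfold R2N.BalAt
  omega

/-- **Row (D).** -/
theorem measSmall : R2N.MeasSmall := by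
  refine ⟨910, 1, fun N hN j hj s lv hlv hlow q x hx hx1 => ?_⟩
  obtain ⟨ν, hν, hbal⟩ := hlow
  set k := comb (fun l => sg (s l)) lv with hk
  have hk0 : k 0 = 0 := comb_zero_level _ _ hlv
  have hkν : ν ∈ k.support := Finsupp.mem_support_iff.2 (comb_sg_ne hbal)
  have hcard : k.support.card ≤ 10 * N := (comb_card_le _ _).trans hj
  have habs : (k.sum fun _ x => |x|) ≤ 10 * N := by
    have h1 := comb_abs_le (fun l => sg (s l)) lv fun l => abs_sg _
    have h2 : ((j : ℕ) : ℤ) ≤ 10 * N := by exact_mod_cast hj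
    exact h1.trans h2
  have hN' : (1 : ℝ) ≤ N := by exact_mod_cast hN
  have hab : 1 / (N : ℝ) ≤ N := by
    rw [div_le_iff₀ (by linarith)]
    nlinarith
  have ha0 : 0 < 1 / (N : ℝ) := by positivity
  have h1 := R2S.partition (F := DF k q) (a := 1 / (N : ℝ)) (b := N)
    (V := ((2 : ℝ) ^ (412 * N ^ 2))⁻¹) (M := 2 ^ (71 * N ^ 2)) (dl := x) (n := 10 * N)
    (by omega) hab (fun i _ y hy => hasDerivAt_DF hk0 q i (ha0.le.trans hy.1)) (by positivity)
    (fun y hy => lower hk0 hN hkν hν hcard (ha0.le.trans hy.1) hy.2 q)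
    (fun i h1 h2 y hy => upper hk0 hN habs (ha0.le.trans hy.1) q h1 h2) hx
  have hset : {μ : ℝ | μ ∈ Set.Icc (1 / (N : ℝ)) N ∧ |R2N.ss μ s lv + q| < x}
      = {y ∈ Set.Icc (1 / (N : ℝ)) N | |DF k q 0 y| < x} := by
    ext μ
    simp only [mem_ofPred_eq]
    rw [DF_zero, dv_shift, ← ss_eq]
  rw [hset]
  refine h1.trans (ENNReal.ofReal_le_ofReal ?_)
  have h2' : (1 : ℝ) ≤ 2 := by norm_num
  have hNN : (N : ℝ) ≤ 2 ^ N := by
    have := (Nat.lt_two_pow_self (n := N)).le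
    exact_mod_cast this
  -- the first factor
  have e1 : ((N : ℝ) - 1 / N) * (2 * 2 ^ (71 * N ^ 2) / ((2 : ℝ) ^ (412 * N ^ 2))⁻¹) + 1
      ≤ 2 ^ (N + 2 + 483 * N ^ 2) := by
    have e2 : 2 * (2 : ℝ) ^ (71 * N ^ 2) / ((2 : ℝ) ^ (412 * N ^ 2))⁻¹ = 2 ^ (1 + 483 * N ^ 2) := by
      rw [div_inv_eq_mul, ← pow_succ', ← pow_add]
      congr 1
      ring
    rw [e2]
    have e3 : ((N : ℝ) - 1 / N) ≤ 2 ^ N := by linarith
    have e4 : (1 : ℝ) ≤ 2 ^ (N + 1 + 483 * N ^ 2) := one_le_pow₀ h2'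
    calc ((N : ℝ) - 1 / N) * 2 ^ (1 + 483 * N ^ 2) + 1
        ≤ 2 ^ N * 2 ^ (1 + 483 * N ^ 2) + 2 ^ (N + 1 + 483 * N ^ 2) := by gcongr
      _ = 2 ^ (N + 2 + 483 * N ^ 2) := by
        rw [← pow_add, show N + (1 + 483 * N ^ 2) = N + 1 + 483 * N ^ 2 by ring,
          show N + 2 + 483 * N ^ 2 = (N + 1 + 483 * N ^ 2) + 1 by ring, pow_succ]
        ring
  -- the last factor
  have e5 : (2 * x / ((2 : ℝ) ^ (412 * N ^ 2))⁻¹) ^ ((1 : ℝ) / ((10 * N : ℕ) : ℝ))
      ≤ 2 ^ (1 + 412 * N ^ 2) * x ^ (1 / (10 * N : ℝ)) := by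
    have e6 : 2 * x / ((2 : ℝ) ^ (412 * N ^ 2))⁻¹ = 2 ^ (1 + 412 * N ^ 2) * x := by
      rw [div_inv_eq_mul, pow_add, pow_one]
      ring
    rw [e6, Real.mul_rpow (by positivity) hx.le]
    push_cast
    refine mul_le_mul_of_nonneg_right ?_ (by positivity)
    have e7 : (1 : ℝ) ≤ 2 ^ (1 + 412 * N ^ 2) := one_le_pow₀ h2'
    calc ((2 : ℝ) ^ (1 + 412 * N ^ 2)) ^ ((1 : ℝ) / (10 * N))
        ≤ ((2 : ℝ) ^ (1 + 412 * N ^ 2)) ^ (1 : ℝ) := by
          apply Real.rpow_le_rpow_of_exponent_le e7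
          rw [div_le_one (by positivity)]
          linarith
      _ = _ := Real.rpow_one _
  calc (((N : ℝ) - 1 / N) * (2 * 2 ^ (71 * N ^ 2) / ((2 : ℝ) ^ (412 * N ^ 2))⁻¹) + 1)
        * 2 ^ (10 * N + 1)
        * (2 * x / ((2 : ℝ) ^ (412 * N ^ 2))⁻¹) ^ ((1 : ℝ) / ((10 * N : ℕ) : ℝ))
      ≤ 2 ^ (N + 2 + 483 * N ^ 2) * 2 ^ (10 * N + 1)
        * (2 ^ (1 + 412 * N ^ 2) * x ^ (1 / (10 * N : ℝ))) := by
        have e8 : 0 ≤ ((2 : ℝ) * x / ((2 : ℝ) ^ (412 * N ^ 2))⁻¹) ^ ((1 : ℝ) / ((10 * N : ℕ) : ℝ)) :=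
          by positivity
        gcongr
    _ = 2 ^ ((N + 2 + 483 * N ^ 2) + (10 * N + 1) + (1 + 412 * N ^ 2))
        * x ^ (1 / (10 * N : ℝ)) := by
        rw [← mul_assoc, ← pow_add, ← pow_add]
    _ ≤ 2 ^ (910 * N ^ 2) * x ^ (1 / (10 * N : ℝ)) := by
        refine mul_le_mul_of_nonneg_right ?_ (by positivity)
        apply pow_le_pow_right₀ h2'
        nlinarith

end Vale.Agent.P139.R2D
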