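import Vale.Agent.P139.R2.H556.Defs2
import Vale.Agent.P139.R2.H866.Proj
import Vale.Agent.P139.R2.H866.Gron
import Vale.Agent.P139.R2.H866.GS
import Vale.Agent.P139.R2.H999.FeLip
import Vale.Agent.P139.R2.H999.Close

/-!
# P139, row R9: from a-priori bounds of the Galerkin systems to a solution
-/

set_option autoImplicit false

open Set Metric Filter Topology MeasureTheory
open scoped NNReal ComplexConjugate

namespace Vale.Agent.P139.BN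

open Vale.Agent.P139.A Vale.Agent.P139.A.WA Vale.Agent.P139.H836

namespace LM

variable {d k : ℕ}

lemma fe_zero (m : ℕ) (c e : ℝ) (w : WA d k) : coef (fe m c e w) 0 = 0 := by
  unfold fe
  rw [coef_sub, coef_Pz, coef_Lin, if_pos rfl, if_pos rfl, sub_zero]

lemma coef_S_zero {μ : ℝ} (hμ : 0 ≤ μ) (t : ℝ) (a : WA d k) : coef (S k hμ t a) 0 = coef a 0 := by
  rw [coef_S]
  have ha : al μ t (0 : Lat d) = 1 := by simp [al, Om_zero]
  have hb : be μ t (0 : Lat d) = 0 := by simp [be, Om_zero]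
  rw [ha, hb]
  ring

lemma norm_S_apply_le {μ : ℝ} (hμ : 0 ≤ μ) (t : ℝ) (x : WA d k) :
    ‖S k hμ t x‖ ≤ 2 * (2 + μ) * ‖x‖ :=
  ((S k hμ t).le_opNorm x).trans (mul_le_mul_of_nonneg_right (norm_S_le hμ t) (norm_nonneg x))

/-- Continuity in time of the moving field. -/
lemma cont_moving {X : Type*} [NormedAddCommGroup X] [NormedSpace ℝ X] (S : ℝ → X →L[ℝ] X) {M : ℝ}
    (hM : 0 < M) (hS : ∀ t, ‖S t‖ ≤ M) (hSc : ∀ x, Continuous fun t => S t x) {f : X → X}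
    (hf : Continuous f) (x : X) : Continuous fun t => S (-t) (f (S t x)) :=
  (A.joint_continuous S hM hS hSc).comp (continuous_neg.prodMk (hf.comp (hSc x)))

/-- Continuity of a Lipschitz field along a curve. -/
lemma field_along {X : Type*} [NormedAddCommGroup X] {G : ℝ → X → X} {KK T : ℝ} (hK : 0 ≤ KK)
    (hG : ∀ t ∈ Icc 0 T, ∀ x x1, ‖G t x - G t x1‖ ≤ KK * ‖x - x1‖)
    (hGc : ∀ x, Continuous fun t => G t x) {y : ℝ → X} (hy : ContinuousOn y (Icc 0 T)) :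
    ContinuousOn (fun t => G t (y t)) (Icc 0 T) := by
  intro t ht
  rw [Metric.continuousWithinAt_iff]
  intro ε hε
  obtain ⟨δ1, hδ1, h1⟩ := Metric.continuous_iff.1 (hGc (y t)) t (ε / 2) (by positivity)
  obtain ⟨δ2, hδ2, h2⟩ := Metric.continuousWithinAt_iff.1 (hy t ht) (ε / (2 * (KK + 1)))
    (by positivity)
  refine ⟨min δ1 δ2, lt_min hδ1 hδ2, fun s hs hst => ?_⟩
  have h3 := h1 s (lt_of_lt_of_le hst (min_le_left _ _))
  have h4 := h2 hs (lt_of_lt_of_le hst (min_le_right _ _))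
  have h5 := hG s hs (y s) (y t)
  rw [dist_eq_norm] at h3 h4 ⊢
  have h6 := norm_sub_le_norm_sub_add_norm_sub (G s (y s)) (G s (y t)) (G t (y t))
  have h9 : ‖y s - y t‖ ≤ ε / (2 * (KK + 1)) := h4.le
  rw [le_div_iff₀ (by positivity)] at h9
  have := norm_nonneg (y s - y t)
  nlinarith

/-- Global flow of a bounded, globally Lipschitz field. -/
theorem exists_global {E : Type*} [NormedAddCommGroup E] [NormedSpace ℝ E] [CompleteSpace E]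
    (g : ℝ → E → E) (K M : ℝ≥0) {T : ℝ} (hT : 0 ≤ T)
    (hLip : ∀ t ∈ Icc 0 T, ∀ x x1, ‖g t x - g t x1‖ ≤ K * ‖x - x1‖)
    (hM : ∀ t ∈ Icc 0 T, ∀ x, ‖g t x‖ ≤ M) (hcont : ∀ x : E, Continuous (fun t => g t x)) (v0 : E) :
    ∃ v : ℝ → E, v 0 = v0 ∧ ∀ t ∈ Icc 0 T, HasDerivWithinAt v (g t (v t)) (Icc 0 T) t := by
  have hpl : IsPicardLindelof g (tmin := 0) (tmax := T) ⟨0, le_rfl, hT⟩ v0
      (M * ⟨T, hT⟩) 0 M K := by
    refine ⟨?_, ?_, ?_, ?_⟩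
    · intro t ht
      refine LipschitzOnWith.of_dist_le_mul fun x _ y _ => ?_
      rw [dist_eq_norm, dist_eq_norm]
      exact hLip t ht x y
    · intro x _
      exact (hcont x).continuousOn
    · intro t ht x _
      exact hM t ht x
    · simp only [sub_zero, sub_self, NNReal.coe_zero]
      rw [max_eq_left hT]
      rfl
  exact hpl.exists_eq_forall_mem_Icc_hasDerivWithinAt₀

/-- The flows. -/
theorem flows {μ : ℝ} (hμ : 0 ≤ μ) {F : WA d k → WA d k} {KF BF : ℝ≥0}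
    (hF : ∀ x x1, ‖F x - F x1‖ ≤ KF * ‖x - x1‖) (hB : ∀ x, ‖F x‖ ≤ BF)
    (hF0 : ∀ x, coef (F x) 0 = 0) {T : ℝ} (hT : 0 ≤ T) {w₀ : WA d k} (hw₀ : coef w₀ 0 = 0) :
    ∃ (y : ℝ → WA d k) (yL : ℕ → ℝ → WA d k), y 0 = w₀ ∧ (∀ L, yL L 0 = PB L w₀) ∧
      (∀ t ∈ Icc 0 T, HasDerivWithinAt y (S k hμ (-t) (F (S k hμ t (y t)))) (Icc 0 T) t) ∧
      (∀ L, ∀ t ∈ Icc 0 T,
        HasDerivWithinAt (yL L) (PB L (S k hμ (-t) (F (S k hμ t (yL L t))))) (Icc 0 T) t) ∧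
      ∀ ε > 0, ∃ L0, ∀ L ≥ L0, ∀ t ∈ Icc 0 T, ‖yL L t - y t‖ ≤ ε := by
  obtain ⟨Mn, hMn⟩ : ∃ Mn : ℝ≥0, (Mn : ℝ) = 2 * (2 + μ) := ⟨⟨2 * (2 + μ), by positivity⟩, rfl⟩
  have hgL : ∀ t ∈ Icc (0 : ℝ) T, ∀ x x1 : WA d k,
      ‖S k hμ (-t) (F (S k hμ t x)) - S k hμ (-t) (F (S k hμ t x1))‖
        ≤ (Mn * KF * Mn : ℝ≥0) * ‖x - x1‖ := by
    intro t _ x x1
    rw [← map_sub]
    calc ‖S k hμ (-t) (F (S k hμ t x) - F (S k hμ t x1))‖
        ≤ 2 * (2 + μ) * ‖F (S k hμ t x) - F (S k hμ t x1)‖ := norm_S_apply_le hμ _ _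
      _ ≤ 2 * (2 + μ) * (KF * (2 * (2 + μ) * ‖x - x1‖)) := by
          gcongr
          refine (hF _ _).trans ?_
          gcongr
          rw [← map_sub]
          exact norm_S_apply_le hμ _ _
      _ = (Mn * KF * Mn : ℝ≥0) * ‖x - x1‖ := by
          push_cast
          rw [hMn]
          ring
  have hgB : ∀ t ∈ Icc (0 : ℝ) T, ∀ x : WA d k,
      ‖S k hμ (-t) (F (S k hμ t x))‖ ≤ (Mn * BF : ℝ≥0) := by
    intro t _ x
    push_cast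
    rw [hMn]
    refine (norm_S_apply_le hμ _ _).trans ?_
    gcongr
    exact hB _
  have hFc : Continuous F := by
    have : LipschitzWith KF F := LipschitzWith.of_dist_le_mul fun x x1 => by
      rw [dist_eq_norm, dist_eq_norm]
      exact hF x x1
    exact this.continuous
  have hgc : ∀ x : WA d k, Continuous fun t => S k hμ (-t) (F (S k hμ t x)) := fun x =>
    cont_moving (X := WA d k) (S k hμ) (by linarith : 0 < 2 * (2 + μ)) (norm_S_le hμ)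
      (continuous_S hμ) hFc x
  obtain ⟨y, hy0, hy⟩ := exists_global (fun t x => S k hμ (-t) (F (S k hμ t x))) _ _ hT hgL hgB
    hgc w₀
  have hex : ∀ L : ℕ, ∃ v : ℝ → WA d k, v 0 = PB L w₀ ∧
      ∀ t ∈ Icc 0 T, HasDerivWithinAt v (PB L (S k hμ (-t) (F (S k hμ t (v t))))) (Icc 0 T) t := by
    intro L
    exact exists_global (fun t x => PB L (S k hμ (-t) (F (S k hμ t x)))) (Mn * KF * Mn) (Mn * BF) hT
      (fun t ht x x1 => by
        rw [← map_sub]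
        exact (norm_PB_le L _).trans (hgL t ht x x1))
      (fun t ht x => (norm_PB_le L _).trans (hgB t ht x))
      (fun x => (PB L).continuous.comp (hgc x)) (PB L w₀)
  choose yL hyL0 hyL using hex
  have hyc : ContinuousOn y (Icc 0 T) := fun t ht => (hy t ht).continuousWithinAt
  refine ⟨y, yL, hy0, hyL0, hy, hyL, ?_⟩
  exact galerkin_conv (g := fun t x => S k hμ (-t) (F (S k hμ t x)))
    (K := (Mn * KF * Mn : ℝ≥0)) (T := T) (by positivity) hT hgL hy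
    (field_along (by positivity) hgL hgc hyc)
    (P := fun L => PB L) (fun L x => norm_PB_le L x)
    (fun t _ => tendsto_PB (by rw [coef_S_zero, hF0]))
    (by rw [hy0]; exact tendsto_PB hw₀) (yL := yL) (fun L => by rw [hyL0, hy0]) hyL

/-- The bootstrap. -/
theorem boot_step {μ : ℝ} (hμ : 0 ≤ μ) {y : ℝ → WA d k} {yL : ℕ → ℝ → WA d k} {T r : ℝ}
    (hr0 : 0 < r)
    (hconv : ∀ ε > 0, ∃ L0, ∀ L ≥ L0, ∀ t ∈ Icc 0 T, ‖yL L t - y t‖ ≤ ε)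
    {t₁ : ℝ} (ht₁ : t₁ ∈ Icc 0 T)
    (hap : ∀ L, (∀ t ∈ Icc 0 t₁, ‖S k hμ t (yL L t)‖ ≤ r) → ‖S k hμ t₁ (yL L t₁)‖ ≤ r / 2)
    (hs : ∀ s ∈ Icc 0 t₁, ‖S k hμ s (y s)‖ ≤ 3 * r / 4) :
    ‖S k hμ t₁ (y t₁)‖ < 3 * r / 4 := by
  set M : ℝ := 2 * (2 + μ) with hM
  have hM0 : 0 < M := by linarith
  obtain ⟨L0, hL0⟩ := hconv (r / (8 * M)) (by positivity)
  have hclose : ∀ t ∈ Icc 0 T, ‖S k hμ t (yL L0 t) - S k hμ t (y t)‖ ≤ r / 8 := by
    intro t ht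
    rw [← map_sub]
    calc ‖S k hμ t (yL L0 t - y t)‖ ≤ M * ‖yL L0 t - y t‖ := norm_S_apply_le hμ _ _
      _ ≤ M * (r / (8 * M)) := by
        gcongr
        exact hL0 L0 le_rfl t ht
      _ = r / 8 := by field_simp
  have hsm : ∀ t ∈ Icc 0 t₁, ‖S k hμ t (yL L0 t)‖ ≤ r := by
    intro t ht
    have h1 := hclose t ⟨ht.1, ht.2.trans ht₁.2⟩
    have h2 := hs t ht
    have h3 : ‖S k hμ t (yL L0 t)‖
        ≤ ‖S k hμ t (y t)‖ + ‖S k hμ t (yL L0 t) - S k hμ t (y t)‖ := by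
      have := norm_add_le (S k hμ t (y t)) (S k hμ t (yL L0 t) - S k hμ t (y t))
      rwa [add_sub_cancel] at this
    linarith
  have h4 := hap L0 hsm
  have h5 := hclose t₁ ht₁
  have h6 : ‖S k hμ t₁ (y t₁)‖
      ≤ ‖S k hμ t₁ (yL L0 t₁)‖ + ‖S k hμ t₁ (yL L0 t₁) - S k hμ t₁ (y t₁)‖ := by
    have := norm_add_le (S k hμ t₁ (yL L0 t₁)) (S k hμ t₁ (y t₁) - S k hμ t₁ (yL L0 t₁))
    rw [add_sub_cancel] at this
    rwa [norm_sub_rev (S k hμ t₁ (yL L0 t₁))]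
  linarith

end LM

open LM

variable {d k : ℕ}

/-- Cutting off a Lipschitz map. -/
theorem exists_cut {E : Type*} [NormedAddCommGroup E] [NormedSpace ℝ E] {f : E → E} {ρ : ℝ}
    (hρ : 0 < ρ) {Lf : ℝ≥0} (hL : LipschitzOnWith Lf f (closedBall (0 : E) (2 * ρ))) :
    ∃ (F : E → E) (KF BF : ℝ≥0), (∀ x x1, ‖F x - F x1‖ ≤ KF * ‖x - x1‖) ∧
      (∀ x, ‖F x‖ ≤ BF) ∧ (∀ x, ∃ s : ℝ, F x = s • f x) ∧ ∀ x, ‖x‖ ≤ ρ → F x = f x := by
  obtain ⟨Bn, hBn⟩ : ∃ Bn : ℝ≥0, (Bn : ℝ) = ‖f 0‖ + Lf * (2 * ρ) :=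
    ⟨⟨‖f 0‖ + Lf * (2 * ρ), by positivity⟩, rfl⟩
  have hfB : ∀ x ∈ closedBall (0 : E) (2 * ρ), ‖f x‖ ≤ Bn := by
    intro x hx
    have h1 := hL.norm_sub_le hx (mem_closedBall_self (by positivity))
    rw [sub_zero] at h1
    have h2 : ‖f x‖ ≤ ‖f 0‖ + ‖f x - f 0‖ := by
      have := norm_add_le (f 0) (f x - f 0)
      rwa [add_sub_cancel] at this
    have h3 : (Lf : ℝ) * ‖x‖ ≤ Lf * (2 * ρ) := by
      gcongr
      exact mem_closedBall_zero_iff.1 hx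
    rw [hBn]
    linarith
  obtain ⟨KF, hKF⟩ : ∃ KF : ℝ≥0, (KF : ℝ) = Lf + Bn / ρ := ⟨⟨Lf + Bn / ρ, by positivity⟩, rfl⟩
  refine ⟨cutField (fun _ => f) ρ 0, KF, Bn, fun x x1 => ?_,
    fun x => cutField_norm_le hρ hfB x, fun x => ⟨_, rfl⟩, fun x hx => ?_⟩
  · rw [hKF]
    exact cutField_dist_le hρ hL hfB x x1
  · unfold cutField
    rw [cut_eq_one ((div_le_one hρ).2 hx), one_smul]

/-- The cut off nonlinearity. -/
theorem exists_F (m : ℕ) {c e : ℝ} (hc : 0 < c) (he0 : 0 ≤ e) :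
    ∃ (F : WA d k → WA d k) (KF BF : ℝ≥0), (∀ x x1, ‖F x - F x1‖ ≤ KF * ‖x - x1‖) ∧
      (∀ x, ‖F x‖ ≤ BF) ∧ (∀ x, coef (F x) 0 = 0) ∧ ∀ x, ‖x‖ ≤ c / 8 → F x = fe m c e x := by
  obtain ⟨Lf, hL⟩ := FL.fe_lip_ball (d := d) (k := k) m hc he0
  rw [show c / 4 = 2 * (c / 8) by ring] at hL
  obtain ⟨F, KF, BF, h1, h2, h3, h4⟩ := exists_cut (by positivity : 0 < c / 8) hL
  refine ⟨F, KF, BF, h1, h2, fun x => ?_, h4⟩
  obtain ⟨s, hs⟩ := h3 x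
  rw [hs, coef_real_smul, fe_zero, mul_zero]

/-- **Row R9 for one `c` and every radius `r ≤ c / 8`.** -/
theorem lim_core {m : ℕ} {c r : ℝ} (hc : 0 < c) (hr0 : 0 < r) (hrc : r ≤ c / 8) {w₀ : WA d k}
    (hw₀0 : coef w₀ 0 = 0) (hw₀ : ‖w₀‖ ≤ r / 2) {T : ℝ} (hT : 0 ≤ T)
    (hyp : ∀ L : ℕ, ∀ T' ∈ Set.Icc 0 T, ∀ w : ℝ → WA d k,
      GSol d k m c (H836.mass w₀) (box d L) T' w →
      (∀ n ∈ box d L, coef (w 0) n = coef w₀ n) → (∀ t ∈ Set.Icc 0 T', ‖w t‖ ≤ r) →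
      ∀ t ∈ Set.Icc 0 T', ‖w t‖ ≤ r / 2) :
    ∃ u : ℝ → WA d k, u 0 = cst c + w₀ ∧ IsSolution d (2 * m + 1) k T (fun t => coef (u t)) ∧
      ∀ t ∈ Set.Icc 0 T, ∃ ζ : ℂ, ‖ζ‖ = 1 ∧ ‖u t - ζ • cst c‖ ≤ 2 * r := by
  have hμ : 0 ≤ (m : ℝ) * c ^ (2 * m) := by positivity
  obtain ⟨F, KF, BF, hF1, hF2, hF3, hFin⟩ := exists_F (d := d) (k := k) m hc (mass_nonneg w₀)
  obtain ⟨y, yL, hy0, hyL0, hy, hyL, hconv⟩ := flows hμ hF1 hF2 hF3 hT hw₀0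
  have hyc : ContinuousOn y (Icc 0 T) := fun t ht => (hy t ht).continuousWithinAt
  have hap : ∀ t₁ ∈ Icc 0 T, ∀ L, (∀ t ∈ Icc 0 t₁, ‖S k hμ t (yL L t)‖ ≤ r) →
      ‖S k hμ t₁ (yL L t₁)‖ ≤ r / 2 := by
    intro t₁ ht₁ L hsm
    have hsub : Icc 0 t₁ ⊆ Icc 0 T := Icc_subset_Icc le_rfl ht₁.2
    have hgs : GSol d k m c (mass w₀) (box d L) t₁ (fun t => S k hμ t (yL L t)) := by
      refine gsol_of_flow hμ rfl (by rw [hyL0, PB_PB]) (fun t ht => ?_)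
        (fun t ht => (hsm t ht).trans (by linarith))
      have h1 := (hyL L t (hsub ht)).mono hsub
      rwa [hFin _ ((hsm t ht).trans hrc)] at h1
    refine hyp L t₁ ht₁ _ hgs (fun n hn => ?_) hsm t₁ ⟨ht₁.1, le_rfl⟩
    rw [hyL0, S_zero, coef_PB, if_pos hn]
  have hboot := continuity_bootstrap (f := fun t => ‖S k hμ t (y t)‖) (g := fun _ => (0 : ℝ))
    (T := T) (A := 3 * r / 4) (B := 1) (continuousOn_S hμ hyc).norm continuousOn_const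
    (fun t₁ ht₁ hs => ⟨boot_step hμ hr0 hconv ht₁ (hap t₁ ht₁) (fun s hs' => (hs s hs').1), one_pos⟩)
    ⟨by
      simp only [hy0, S_zero]
      linarith, one_pos⟩
  have hsmall : ∀ t ∈ Icc 0 T, ‖S k hμ t (y t)‖ ≤ r := fun t ht => by
    have := (hboot t ht).1
    linarith
  obtain ⟨u, hu0, hu, hu2⟩ := RG.recon_gauge (d := d) (k := k) hc hr0.le
    (by linarith : r ≤ c / 2) hμ rfl hT (y := y)
    (by rw [hy0]; exact hw₀0) (by rw [hy0]; linarith)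
    (fun t ht => by
      rw [hy0]
      have h1 := hy t ht
      rwa [hFin _ ((hsmall t ht).trans hrc)] at h1) hsmall
  exact ⟨u, by rw [hu0, hy0], hu, hu2⟩

/-- **Row R9.** -/
theorem limThm (d k m : ℕ) : LimThm d k m := by
  intro ρ₀ hρ₀
  refine ⟨ρ₀ / 32, ρ₀ / 2, by positivity, by positivity, ?_⟩
  intro c hcρ w₀ hw₀0 hw₀ T C hT hyp
  rw [abs_le] at hcρ
  have hc1 : ρ₀ / 2 ≤ c := by linarith
  obtain ⟨u, h1, h2, -⟩ := lim_core (m := m) (c := c) (r := ρ₀ / 32) (by linarith) (by positivity)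
    (by linarith) hw₀0 hw₀ hT (fun L T' hT' w hw h0 hs t ht => (hyp L T' hT' w hw h0 hs t ht).1)
  exact ⟨u, h1, h2⟩

/-- **Row R9, stage 2.** -/
theorem limQ (d k m : ℕ) : LimQ d k m := by
  intro c r hc hr w₀ hw₀0 hw₀ T C hT hyp
  exact lim_core (m := m) hc (by rw [hr]; positivity) (by rw [hr]; linarith) hw₀0 hw₀ hT
    (fun L T' hT' w hw h0 hs t ht => (hyp L T' hT' w hw h0 hs t ht).1)

end Vale.Agent.P139.BN
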