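import Mathlib.Analysis.Meromorphic.Basic
import Mathlib.Analysis.SpecialFunctions.Complex.Analytic
import Mathlib.Algebra.BigOperators.Finsupp.Basic
import Mathlib.Data.Finsupp.Encodable
import Vale.Agent.P139.H212.Ae

/-!
# P139: all divisors of the Bogoliubov frequencies with at most two high indices

`om μ j = √(j (j + 2 μ))`. Outside a countable set of `μ > 0` every signed sum of `om μ m₁, …, om μ m_r`
with at most two indices `≥ M` which does not cancel identically is bounded away from `0`, locally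
uniformly in `μ`.
-/

set_option autoImplicit false

namespace Vale.Agent.P139.R2D

open Set Filter Topology MeasureTheory ProbabilityTheory
open Vale.Agent.P139.H212

/-- The divisor of the combination `k`, shifted by the integer `j`. -/
noncomputable def dv (μ : ℝ) (k : ℕ →₀ ℤ) (j : ℤ) : ℝ := (k.sum fun m c => (c : ℝ) * om μ m) + j

theorem dv_add (μ : ℝ) (k l : ℕ →₀ ℤ) (j i : ℤ) : dv μ (k + l) (j + i) = dv μ k j + dv μ l i := by
  unfold dv
  rw [Finsupp.sum_add_index']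
  · push_cast
    ring
  · intro m
    simp
  · intro m b c
    push_cast
    ring

theorem dv_add_zero (μ : ℝ) (k l : ℕ →₀ ℤ) : dv μ (k + l) 0 = dv μ k 0 + dv μ l 0 := by
  have := dv_add μ k l 0 0
  simpa using this

theorem dv_single (μ : ℝ) (a : ℕ) (σ : ℤ) : dv μ (Finsupp.single a σ) 0 = σ * om μ a := by
  unfold dv
  rw [Finsupp.sum_single_index] <;> simp

theorem dv_shift (μ : ℝ) (k : ℕ →₀ ℤ) (j : ℤ) : dv μ k j = dv μ k 0 + j := by
  unfold dv
  simp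

theorem om_cont (m : ℕ) : Continuous fun μ => om μ m := by
  unfold om
  fun_prop

theorem dv_cont (k : ℕ →₀ ℤ) (j : ℤ) : Continuous fun μ => dv μ k j := by
  unfold dv Finsupp.sum
  refine Continuous.add (continuous_finsetSum _ fun m _ => ?_) continuous_const
  exact continuous_const.mul (om_cont m)

/-! ### Non-vanishing -/

theorem om_analyticAt {m : ℕ} {x : ℝ} (h : 0 < (m : ℝ) * (m + 2 * x)) :
    AnalyticAt ℝ (fun μ => om μ m) x := by
  have h1 : AnalyticAt ℝ (fun μ : ℝ => (m : ℝ) * (m + 2 * μ)) x := by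
    have : AnalyticAt ℝ (fun μ : ℝ => μ) x := analyticAt_id
    fun_prop
  have h2 : AnalyticAt ℝ (fun μ : ℝ => Real.exp (Real.log ((m : ℝ) * (m + 2 * μ)) / 2)) x := by
    have h3 : AnalyticAt ℝ (fun μ : ℝ => Real.log ((m : ℝ) * (m + 2 * μ)) / 2) x :=
      (h1.log h).div analyticAt_const (by norm_num)
    exact h3.rexp
  refine h2.congr ?_
  have h4 : ∀ᶠ μ in 𝓝 x, 0 < (m : ℝ) * (m + 2 * μ) := by
    have : ContinuousAt (fun μ : ℝ => (m : ℝ) * (m + 2 * μ)) x := h1.continuousAt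
    exact this.eventually (lt_mem_nhds h)
  filter_upwards [h4] with μ hμ
  unfold om
  rw [Real.sqrt_eq_rpow, Real.rpow_def_of_pos hμ]
  ring_nf

theorem dv_analyticAt {k : ℕ →₀ ℤ} (j : ℤ) {x : ℝ}
    (h : ∀ m ∈ k.support, 0 < (m : ℝ) * (m + 2 * x)) : AnalyticAt ℝ (fun μ => dv μ k j) x := by
  unfold dv Finsupp.sum
  refine AnalyticAt.add (Finset.analyticAt_fun_sum _ fun m hm => ?_) analyticAt_const
  exact analyticAt_const.mul (om_analyticAt (h m hm))

theorem not_all_zero {k : ℕ →₀ ℤ} {n : ℕ} (hn : 1 ≤ n) (hkn : k n ≠ 0)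
    (hmin : ∀ m ∈ k.support, n ≤ m) (j : ℤ) :
    ¬ EqOn (fun μ => dv μ k j) 0 (Ioi (-(n : ℝ) / 2)) := by
  intro h
  have hn' : (1 : ℝ) ≤ n := by exact_mod_cast hn
  have hk0 : (k n : ℝ) ≠ 0 := by exact_mod_cast hkn
  -- the rest
  set l : ℕ →₀ ℤ := k.erase n with hl
  have hkl : k = l + Finsupp.single n (k n) := by
    rw [hl]
    exact (Finsupp.erase_add_single n k).symm
  have hF : ∀ μ, dv μ k j = dv μ l j + k n * om μ n := by
    intro μ
    have h1 := dv_add μ l (Finsupp.single n (k n)) j 0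
    rw [← hkl, dv_single, add_zero] at h1
    exact h1
  set x₀ : ℝ := -(n : ℝ) / 2 with hx₀
  have hdiff : DifferentiableAt ℝ (fun μ => dv μ l j) x₀ := by
    refine (dv_analyticAt j fun m hm => ?_).differentiableAt
    rw [hl, Finsupp.support_erase, Finset.mem_erase] at hm
    have h1 := hmin m hm.2
    have h2 : n < m := lt_of_le_of_ne h1 (Ne.symm hm.1)
    have h3 : (n : ℝ) < m := by exact_mod_cast h2
    have h4 : (0 : ℝ) < m := by linarith
    have h5 : (0 : ℝ) < m + 2 * x₀ := by rw [hx₀]; linarith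
    positivity
  -- the value at the end point
  have hval : dv x₀ l j = 0 := by
    have h1 : Tendsto (fun μ => dv μ k j) (𝓝[>] x₀) (𝓝 (dv x₀ k j)) :=
      ((dv_cont k j).tendsto x₀).mono_left nhdsWithin_le_nhds
    have h2 : Tendsto (fun μ => dv μ k j) (𝓝[>] x₀) (𝓝 0) := by
      refine tendsto_const_nhds.congr' ?_
      filter_upwards [self_mem_nhdsWithin] with μ hμ
      exact (h hμ).symm
    have h3 := tendsto_nhds_unique h1 h2
    rw [hF x₀] at h3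
    have h4 : om x₀ n = 0 := by
      unfold om
      rw [hx₀]
      have : (n : ℝ) * (n + 2 * (-(n : ℝ) / 2)) = 0 := by ring
      rw [this, Real.sqrt_zero]
    rw [h4, mul_zero, add_zero] at h3
    exact h3
  obtain ⟨C, hC⟩ := hdiff.isBigO_sub.bound
  have hC' : ∀ᶠ μ in 𝓝[>] x₀, |dv μ l j - dv x₀ l j| ≤ C * |μ - x₀| := by
    have := hC.filter_mono (nhdsWithin_le_nhds (s := Ioi x₀))
    simpa only [Real.norm_eq_abs] using this
  -- compare the orders
  have hlim : Tendsto (fun μ : ℝ => C ^ 2 * (μ - x₀)) (𝓝[>] x₀) (𝓝 0) := by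
    have : Tendsto (fun μ : ℝ => C ^ 2 * (μ - x₀)) (𝓝 x₀) (𝓝 (C ^ 2 * (x₀ - x₀))) := by
      apply Continuous.tendsto
      fun_prop
    rw [sub_self, mul_zero] at this
    exact this.mono_left nhdsWithin_le_nhds
  have hpos : 0 < (k n : ℝ) ^ 2 * (2 * n) := by positivity
  have hev : ∀ᶠ μ in 𝓝[>] x₀, C ^ 2 * (μ - x₀) < (k n : ℝ) ^ 2 * (2 * n) :=
    hlim.eventually (gt_mem_nhds hpos)
  obtain ⟨μ, hμ1, hμ2, hμ3⟩ := (hC'.and (hev.and self_mem_nhdsWithin)).exists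
  have hμ3' : 0 < μ - x₀ := sub_pos.2 hμ3
  have e1 : dv μ k j = 0 := h hμ3
  rw [hF μ] at e1
  rw [hval, sub_zero, abs_of_pos hμ3'] at hμ1
  have e2 : |dv μ l j| = |(k n : ℝ)| * om μ n := by
    have : dv μ l j = -(k n * om μ n) := by linarith
    rw [this, abs_neg, abs_mul, abs_of_nonneg (om_nonneg n)]
  rw [e2] at hμ1
  have e3 : om μ n ^ 2 = 2 * n * (μ - x₀) := by
    unfold om
    rw [Real.sq_sqrt]
    · rw [hx₀]
      ring
    · have : (0 : ℝ) < n + 2 * μ := by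
        rw [hx₀] at hμ3'
        linarith
      positivity
  have e4 : (|(k n : ℝ)| * om μ n) ^ 2 ≤ (C * (μ - x₀)) ^ 2 :=
    pow_le_pow_left₀ (mul_nonneg (abs_nonneg _) (om_nonneg n)) hμ1 2
  rw [mul_pow, sq_abs, e3] at e4
  have e5 : (k n : ℝ) ^ 2 * (2 * n) * (μ - x₀) ≤ C ^ 2 * (μ - x₀) * (μ - x₀) := by nlinarith
  have e6 := le_of_mul_le_mul_right e5 hμ3'
  linarith

theorem zero_countable {k : ℕ →₀ ℤ} (h0 : k 0 = 0) (hk : k ≠ 0) (j : ℤ) :
    {μ : ℝ | 0 < μ ∧ dv μ k j = 0}.Countable := by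
  have hne : k.support.Nonempty := Finsupp.support_nonempty_iff.2 hk
  set n := k.support.min' hne with hn
  have hmem : n ∈ k.support := Finset.min'_mem _ _
  have hmin : ∀ m ∈ k.support, n ≤ m := fun m hm => Finset.min'_le _ _ hm
  have hkn : k n ≠ 0 := Finsupp.mem_support_iff.1 hmem
  have hn1 : 1 ≤ n := by
    rcases Nat.eq_zero_or_pos n with h | h
    · rw [h] at hkn
      exact absurd h0 hkn
    · exact h
  have hana : AnalyticOnNhd ℝ (fun μ => dv μ k j) (Ioi (-(n : ℝ) / 2)) := by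
    intro x hx
    refine dv_analyticAt j fun m hm => ?_
    have h1 : (n : ℝ) ≤ m := by exact_mod_cast hmin m hm
    have h2 : (1 : ℝ) ≤ n := by exact_mod_cast hn1
    have h3 : (0 : ℝ) < m + 2 * x := by
      have : -(n : ℝ) / 2 < x := hx
      linarith
    have h4 : (0 : ℝ) < m := by linarith
    positivity
  rcases hana.eqOn_zero_or_eventually_ne_zero_of_preconnected isPreconnected_Ioi with h | h
  · exact absurd h (not_all_zero hn1 hkn hmin j)
  · have h1 : ({μ | dv μ k j ≠ 0}ᶜ ∩ Ioi (-(n : ℝ) / 2)).Countable := by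
      apply (HereditarilyLindelofSpace.isLindelof _).countable_of_isDiscrete
        (isDiscrete_of_codiscreteWithin _)
      simpa using! h
    refine h1.mono ?_
    rintro μ ⟨hμ, hz⟩
    refine ⟨fun hc => hc hz, ?_⟩
    have h2 : (1 : ℝ) ≤ n := by exact_mod_cast hn1
    show -(n : ℝ) / 2 < μ
    linarith

/-- `μ` is good. -/
def Nondeg (μ : ℝ) : Prop := 0 < μ ∧ ∀ (k : ℕ →₀ ℤ) (j : ℤ), k 0 = 0 → (k ≠ 0 ∨ j ≠ 0) → dv μ k j ≠ 0

theorem nondeg_countable : {μ : ℝ | 0 < μ ∧ ¬ Nondeg μ}.Countable := by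
  have h1 : (⋃ k : ℕ →₀ ℤ, ⋃ j : ℤ, {μ : ℝ | k 0 = 0 ∧ k ≠ 0 ∧ 0 < μ ∧ dv μ k j = 0}).Countable := by
    refine countable_iUnion fun k => countable_iUnion fun j => ?_
    by_cases h : k 0 = 0 ∧ k ≠ 0
    · refine (zero_countable h.1 h.2 j).mono ?_
      rintro μ ⟨-, -, hμ1, hμ2⟩
      exact ⟨hμ1, hμ2⟩
    · refine Set.countable_empty.mono ?_
      rintro μ ⟨hμ1, hμ2, -⟩
      exact h ⟨hμ1, hμ2⟩
  refine h1.mono ?_
  rintro μ ⟨hμ, hb⟩
  by_contra hcon
  simp only [mem_iUnion, mem_ofPred_eq, not_exists, not_and] at hcon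
  refine hb ⟨hμ, fun k j hk0 hkj hz => ?_⟩
  by_cases hk : k = 0
  · subst hk
    have hj : j ≠ 0 := by
      rcases hkj with h | h
      · exact absurd rfl h
      · exact h
    apply hj
    have : dv μ 0 j = j := by
      unfold dv
      simp
    rw [this] at hz
    exact_mod_cast hz
  · exact hcon k j hk0 hk hμ hz

/-! ### Lower bounds on families -/

/-- A lower bound of the divisors of a family near `μ₀`. -/
def LB (μ₀ : ℝ) (S : Set (ℕ →₀ ℤ)) : Prop :=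
  ∃ γ : ℝ, 0 < γ ∧ ∀ᶠ μ in 𝓝 μ₀, ∀ k ∈ S, γ ≤ |dv μ k 0|

theorem LB.mono {μ₀ : ℝ} {S T : Set (ℕ →₀ ℤ)} (h : LB μ₀ T) (hST : S ⊆ T) : LB μ₀ S := by
  obtain ⟨γ, hγ, h⟩ := h
  exact ⟨γ, hγ, h.mono fun μ hμ k hk => hμ k (hST hk)⟩

theorem LB.union {μ₀ : ℝ} {S T : Set (ℕ →₀ ℤ)} (h : LB μ₀ S) (h' : LB μ₀ T) : LB μ₀ (S ∪ T) := by
  obtain ⟨γ, hγ, h⟩ := h
  obtain ⟨γ', hγ', h'⟩ := h'
  refine ⟨min γ γ', lt_min hγ hγ', ?_⟩
  filter_upwards [h, h'] with μ hμ hμ' k hk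
  rcases hk with hk | hk
  · exact (min_le_left _ _).trans (hμ k hk)
  · exact (min_le_right _ _).trans (hμ' k hk)

theorem LB.empty (μ₀ : ℝ) : LB μ₀ ∅ := ⟨1, one_pos, Eventually.of_forall fun _ _ h => h.elim⟩

theorem LB.biUnion {μ₀ : ℝ} {ι : Type*} {I : Set ι} (hI : I.Finite) {S : ι → Set (ℕ →₀ ℤ)}
    (h : ∀ i ∈ I, LB μ₀ (S i)) : LB μ₀ (⋃ i ∈ I, S i) := by
  induction I, hI using Set.Finite.induction_on with
  | empty =>
    simp only [mem_empty_iff_false, iUnion_of_empty, iUnion_empty]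
    exact LB.empty μ₀
  | @insert a s ha hs ih =>
    rw [biUnion_insert]
    exact (h a (mem_insert _ _)).union (ih fun i hi => h i (mem_insert_of_mem _ hi))

theorem LB.singleton {μ₀ : ℝ} {k : ℕ →₀ ℤ} (h : dv μ₀ k 0 ≠ 0) : LB μ₀ {k} := by
  have h1 : 0 < |dv μ₀ k 0| := abs_pos.2 h
  refine ⟨|dv μ₀ k 0| / 2, by positivity, ?_⟩
  have h2 : ContinuousAt (fun μ => |dv μ k 0|) μ₀ := (dv_cont k 0).abs.continuousAt
  filter_upwards [h2.eventually (lt_mem_nhds (show |dv μ₀ k 0| / 2 < |dv μ₀ k 0| by linarith))]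
    with μ hμ k' hk'
  rw [mem_singleton_iff.1 hk']
  exact hμ.le

theorem LB.finite {μ₀ : ℝ} {S : Set (ℕ →₀ ℤ)} (hS : S.Finite) (h : ∀ k ∈ S, dv μ₀ k 0 ≠ 0) :
    LB μ₀ S := by
  have := LB.biUnion hS (S := fun k => {k}) fun k hk => LB.singleton (h k hk)
  simpa using this

theorem le_om {μ : ℝ} (hμ : 0 ≤ μ) (m : ℕ) : (m : ℝ) ≤ om μ m := by
  apply le_of_sq_le_sq _ (om_nonneg _)
  rw [om_sq hμ]
  have : (0 : ℝ) ≤ m := Nat.cast_nonneg m
  nlinarith

theorem om_sub {μ : ℝ} (hμ : 0 < μ) (a j : ℕ) : (j : ℝ) ≤ om μ (a + j) - om μ a := by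
  have h1 := om_sq hμ.le a
  have h2 := om_sq hμ.le (a + j)
  have h3 := gg_nonneg hμ.le a
  have h4 := gg_nonneg hμ.le (a + j)
  have h5 := om_mono hμ.le (show a ≤ a + j by omega)
  have h6 := om_nonneg (μ := μ) a
  unfold gg at h3 h4
  push_cast at h2 h4
  have hj : (0 : ℝ) ≤ j := Nat.cast_nonneg j
  have ha : (0 : ℝ) ≤ a := Nat.cast_nonneg a
  have h7 : (om μ (a + j) - om μ a) * (om μ (a + j) + om μ a) = j * (2 * a + j + 2 * μ) := by
    nlinarith
  have h8 : (0 : ℝ) < 2 * a + j + 2 * μ := by positivity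
  have h9 : om μ (a + j) + om μ a ≤ 2 * a + j + 2 * μ := by linarith
  by_contra hcon
  push Not at hcon
  have h10 : (om μ (a + j) - om μ a) * (om μ (a + j) + om μ a)
      ≤ (om μ (a + j) - om μ a) * (2 * a + j + 2 * μ) :=
    mul_le_mul_of_nonneg_left h9 (by linarith)
  have h11 : (om μ (a + j) - om μ a) * (2 * a + j + 2 * μ) < j * (2 * a + j + 2 * μ) :=
    mul_lt_mul_of_pos_right hcon h8
  linarith

/-- The family with low part `l` and a pair of opposite signs at distance `j`. -/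
theorem LB.pair {μ₀ : ℝ} (hμ₀ : Nondeg μ₀) {l : ℕ →₀ ℤ} (hl : l 0 = 0) {σ : ℤ} (hσ : |σ| = 1)
    (j : ℕ) : LB μ₀ {k | k ≠ 0 ∧ ∃ b, 1 ≤ b ∧
      k = l + Finsupp.single (b + j) σ + Finsupp.single b (-σ)} := by
  have hpos := hμ₀.1
  have hσ0 : σ ≠ 0 := by
    intro h
    rw [h] at hσ
    simp at hσ
  have hσa : |(σ : ℝ)| = 1 := by exact_mod_cast congrArg (fun z : ℤ => (z : ℝ)) hσ
  rcases Nat.eq_zero_or_pos j with hj | hj
  · subst hj
    have hsub : {k | k ≠ 0 ∧ ∃ b, 1 ≤ b ∧ k = l + Finsupp.single (b + 0) σ + Finsupp.single b (-σ)}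
        ⊆ {k | k ≠ 0 ∧ k = l} := by
      rintro k ⟨hk, b, -, rfl⟩
      refine ⟨hk, ?_⟩
      rw [add_zero, add_assoc, ← Finsupp.single_add, add_neg_cancel, Finsupp.single_zero, add_zero]
    refine (LB.finite ((Set.finite_singleton l).subset ?_) ?_).mono hsub
    · rintro k ⟨-, rfl⟩
      rfl
    · rintro k ⟨hk, rfl⟩
      exact hμ₀.2 k 0 hl (Or.inl hk)
  · have hlim : dv μ₀ l (σ * j) ≠ 0 := by
      refine hμ₀.2 l _ hl (Or.inr ?_)
      have : (j : ℤ) ≠ 0 := by omega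
      exact mul_ne_zero hσ0 this
    set g := |dv μ₀ l (σ * j)| with hg
    have hg0 : 0 < g := abs_pos.2 hlim
    -- the tail
    obtain ⟨B, hB⟩ := exists_nat_ge ((μ₀ + 1) ^ 2 * 4 / g + 1)
    have htail : LB μ₀ {k | ∃ b, B ≤ b ∧ k = l + Finsupp.single (b + j) σ + Finsupp.single b (-σ)} := by
      refine ⟨g / 4, by positivity, ?_⟩
      have h1 : ContinuousAt (fun μ => |dv μ l (σ * j)|) μ₀ := (dv_cont l _).abs.continuousAt
      have h2 : ∀ᶠ μ in 𝓝 μ₀, 3 / 4 * g < |dv μ l (σ * j)| :=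
        h1.eventually (lt_mem_nhds (show 3 / 4 * g < |dv μ₀ l (σ * j)| by rw [← hg]; linarith))
      have h3 : ∀ᶠ μ : ℝ in 𝓝 μ₀, 0 < μ := lt_mem_nhds hpos
      have h4 : ∀ᶠ μ : ℝ in 𝓝 μ₀, μ < μ₀ + 1 := gt_mem_nhds (by linarith)
      filter_upwards [h2, h3, h4] with μ h2 h3 h4 k hk
      obtain ⟨b, hb, rfl⟩ := hk
      have hBpos : (1 : ℝ) ≤ B := by
        have : 0 ≤ (μ₀ + 1) ^ 2 * 4 / g := by positivity
        linarith
      have hb' : (B : ℝ) ≤ b := by exact_mod_cast hb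
      have hb1 : 1 ≤ b := by
        have : (1 : ℝ) ≤ b := by linarith
        exact_mod_cast this
      have e : dv μ (l + Finsupp.single (b + j) σ + Finsupp.single b (-σ)) 0
          = dv μ l (σ * j) + σ * (gg μ b - gg μ (b + j)) := by
        rw [dv_add_zero, dv_add_zero, dv_single, dv_single, dv_shift μ l (σ * j), om_eq (b + j),
          om_eq b]
        push_cast
        ring
      rw [e]
      have k1 := gg_le h3.le hb1
      have k2 := gg_le h3.le (show 1 ≤ b + j by omega)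
      have k3 := gg_nonneg h3.le b
      have k4 := gg_nonneg h3.le (b + j)
      have k5 : μ ^ 2 / b ≤ g / 4 := by
        rw [div_le_iff₀ (by linarith)]
        have k6 : (μ₀ + 1) ^ 2 * 4 / g ≤ b := by linarith
        rw [div_le_iff₀ hg0] at k6
        nlinarith
      have k7 : μ ^ 2 / ((b + j : ℕ) : ℝ) ≤ μ ^ 2 / b := by
        apply div_le_div_of_nonneg_left (by positivity) (by linarith)
        push_cast
        have : (0 : ℝ) ≤ j := Nat.cast_nonneg j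
        linarith
      have k8 : |(σ : ℝ) * (gg μ b - gg μ (b + j))| ≤ g / 4 := by
        rw [abs_mul, hσa, one_mul, abs_le]
        constructor <;> linarith
      have k9 := abs_sub_abs_le_abs_sub (dv μ l (σ * j)) (-(σ * (gg μ b - gg μ (b + j))))
      rw [abs_neg, sub_neg_eq_add] at k9
      linarith
    -- the finitely many others
    have hfin : LB μ₀ {k | k ≠ 0 ∧ ∃ b, 1 ≤ b ∧ b < B ∧
        k = l + Finsupp.single (b + j) σ + Finsupp.single b (-σ)} := by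
      refine LB.finite ?_ ?_
      · refine ((Set.finite_Iio B).image
          (fun b => l + Finsupp.single (b + j) σ + Finsupp.single b (-σ))).subset ?_
        rintro k ⟨-, b, -, hb, rfl⟩
        exact ⟨b, hb, rfl⟩
      · rintro k ⟨hk, b, hb1, -, rfl⟩
        refine hμ₀.2 _ 0 ?_ (Or.inl hk)
        rw [Finsupp.add_apply, Finsupp.add_apply, hl, Finsupp.single_eq_of_ne (by omega),
          Finsupp.single_eq_of_ne (by omega)]
        rfl
    refine (htail.union hfin).mono ?_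
    rintro k ⟨hk, b, hb1, rfl⟩
    rcases lt_or_ge b B with hb | hb
    · right
      exact ⟨hk, b, hb1, hb, rfl⟩
    · left
      exact ⟨b, hb, rfl⟩

/-- A constant which bounds the low part near `μ₀`. -/
theorem exists_C {μ₀ : ℝ} (hpos : 0 < μ₀) (l : ℕ →₀ ℤ) :
    ∃ C : ℕ, 1 ≤ C ∧ ∀ᶠ μ in 𝓝 μ₀, 0 < μ ∧ ∀ X : ℝ, (C : ℝ) ≤ |X| → 1 ≤ |dv μ l 0 + X| := by
  have h1 : ContinuousAt (fun μ => |dv μ l 0|) μ₀ := (dv_cont l _).abs.continuousAt
  have h2 : ∀ᶠ μ in 𝓝 μ₀, |dv μ l 0| < |dv μ₀ l 0| + 1 := h1.eventually (gt_mem_nhds (by linarith))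
  obtain ⟨C, hC⟩ := exists_nat_ge (|dv μ₀ l 0| + 2)
  refine ⟨C, ?_, ?_⟩
  · have := abs_nonneg (dv μ₀ l 0)
    have h : (1 : ℝ) ≤ C := by linarith
    exact_mod_cast h
  · filter_upwards [h2, lt_mem_nhds hpos] with μ h2 h3
    refine ⟨h3, fun X hX => ?_⟩
    have k3 := abs_sub_abs_le_abs_sub X (-(dv μ l 0))
    rw [abs_neg, sub_neg_eq_add, add_comm X] at k3
    linarith

theorem abs_one {σ : ℤ} (hσ : |σ| = 1) : |(σ : ℝ)| = 1 := by
  exact_mod_cast congrArg (fun z : ℤ => (z : ℝ)) hσ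

/-- One more index. -/
theorem LB.one {μ₀ : ℝ} (hμ₀ : Nondeg μ₀) {l : ℕ →₀ ℤ} (hl : l 0 = 0) {σ : ℤ} (hσ : |σ| = 1) :
    LB μ₀ {k | k ≠ 0 ∧ ∃ a, 1 ≤ a ∧ k = l + Finsupp.single a σ} := by
  obtain ⟨C, -, h⟩ := exists_C hμ₀.1 l
  have hfin : LB μ₀ {k | k ≠ 0 ∧ ∃ a, 1 ≤ a ∧ a ≤ C ∧ k = l + Finsupp.single a σ} := by
    refine LB.finite ?_ ?_
    · refine ((Set.finite_Iic C).image (fun a => l + Finsupp.single a σ)).subset ?_
      rintro k ⟨-, a, -, ha, rfl⟩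
      exact ⟨a, ha, rfl⟩
    · rintro k ⟨hk, a, ha1, -, rfl⟩
      refine hμ₀.2 _ 0 ?_ (Or.inl hk)
      rw [Finsupp.add_apply, hl, Finsupp.single_eq_of_ne (by omega)]
      rfl
  have hbig : LB μ₀ {k | ∃ a, C ≤ a ∧ k = l + Finsupp.single a σ} := by
    refine ⟨1, one_pos, ?_⟩
    filter_upwards [h] with μ h k hk
    obtain ⟨a, ha, rfl⟩ := hk
    rw [dv_add_zero, dv_single]
    refine h.2 _ ?_
    rw [abs_mul, abs_one hσ, one_mul, abs_of_nonneg (om_nonneg a)]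
    have : (C : ℝ) ≤ a := by exact_mod_cast ha
    linarith [le_om h.1.le a]
  refine (hfin.union hbig).mono ?_
  rintro k ⟨hk, a, ha, rfl⟩
  rcases le_or_gt C a with h | h
  · right
    exact ⟨a, h, rfl⟩
  · left
    exact ⟨hk, a, ha, h.le, rfl⟩

/-- Two more indices of the same sign. -/
theorem LB.same {μ₀ : ℝ} (hμ₀ : Nondeg μ₀) {l : ℕ →₀ ℤ} (hl : l 0 = 0) {σ : ℤ} (hσ : |σ| = 1) :
    LB μ₀ {k | k ≠ 0 ∧ ∃ a b, 1 ≤ a ∧ 1 ≤ b ∧
      k = l + Finsupp.single a σ + Finsupp.single b σ} := by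
  obtain ⟨C, -, h⟩ := exists_C hμ₀.1 l
  have hfin : LB μ₀ {k | k ≠ 0 ∧ ∃ a b, 1 ≤ a ∧ 1 ≤ b ∧ a ≤ C ∧ b ≤ C ∧
      k = l + Finsupp.single a σ + Finsupp.single b σ} := by
    refine LB.finite ?_ ?_
    · refine (((Set.finite_Iic C).prod (Set.finite_Iic C)).image
        (fun p : ℕ × ℕ => l + Finsupp.single p.1 σ + Finsupp.single p.2 σ)).subset ?_
      rintro k ⟨-, a, b, -, -, ha, hb, rfl⟩
      exact ⟨(a, b), ⟨ha, hb⟩, rfl⟩
    · rintro k ⟨hk, a, b, ha1, hb1, -, -, rfl⟩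
      refine hμ₀.2 _ 0 ?_ (Or.inl hk)
      rw [Finsupp.add_apply, Finsupp.add_apply, hl, Finsupp.single_eq_of_ne (by omega),
        Finsupp.single_eq_of_ne (by omega)]
      rfl
  have hbig : LB μ₀ {k | ∃ a b, C ≤ a + b ∧
      k = l + Finsupp.single a σ + Finsupp.single b σ} := by
    refine ⟨1, one_pos, ?_⟩
    filter_upwards [h] with μ h k hk
    obtain ⟨a, b, hab, rfl⟩ := hk
    rw [dv_add_zero, dv_add_zero, dv_single, dv_single, add_assoc]
    refine h.2 _ ?_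
    rw [← mul_add, abs_mul, abs_one hσ, one_mul,
      abs_of_nonneg (add_nonneg (om_nonneg a) (om_nonneg b))]
    have : (C : ℝ) ≤ a + b := by exact_mod_cast hab
    linarith [le_om h.1.le a, le_om h.1.le b]
  refine (hfin.union hbig).mono ?_
  rintro k ⟨hk, a, b, ha, hb, rfl⟩
  rcases le_or_gt C (a + b) with h | h
  · right
    exact ⟨a, b, h, rfl⟩
  · left
    exact ⟨hk, a, b, ha, hb, by omega, by omega, rfl⟩

/-- Two more indices of opposite signs. -/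
theorem LB.opp {μ₀ : ℝ} (hμ₀ : Nondeg μ₀) {l : ℕ →₀ ℤ} (hl : l 0 = 0) {σ : ℤ} (hσ : |σ| = 1) :
    LB μ₀ {k | k ≠ 0 ∧ ∃ a b, 1 ≤ a ∧ 1 ≤ b ∧
      k = l + Finsupp.single a σ + Finsupp.single b (-σ)} := by
  obtain ⟨C, -, h⟩ := exists_C hμ₀.1 l
  have h1 : LB μ₀ (⋃ j ∈ Set.Iio C, {k | k ≠ 0 ∧ ∃ b, 1 ≤ b ∧
      k = l + Finsupp.single (b + j) σ + Finsupp.single b (-σ)}) :=
    LB.biUnion (Set.finite_Iio C) fun j _ => LB.pair hμ₀ hl hσ j
  have h2 : LB μ₀ (⋃ j ∈ Set.Iio C, {k | k ≠ 0 ∧ ∃ b, 1 ≤ b ∧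
      k = l + Finsupp.single (b + j) (-σ) + Finsupp.single b (-(-σ))}) :=
    LB.biUnion (Set.finite_Iio C) fun j _ => LB.pair hμ₀ hl (by rw [abs_neg]; exact hσ) j
  have hbig : LB μ₀ {k | ∃ b j, C ≤ j ∧ (k = l + Finsupp.single (b + j) σ + Finsupp.single b (-σ) ∨
      k = l + Finsupp.single b σ + Finsupp.single (b + j) (-σ))} := by
    refine ⟨1, one_pos, ?_⟩
    filter_upwards [h] with μ h k hk
    obtain ⟨b, j, hj, hk⟩ := hk
    have hj' : (C : ℝ) ≤ j := by exact_mod_cast hj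
    have h3 := om_sub h.1 b j
    have h4 : 0 ≤ om μ (b + j) - om μ b := le_trans (Nat.cast_nonneg j) h3
    rcases hk with rfl | rfl
    · rw [dv_add_zero, dv_add_zero, dv_single, dv_single, add_assoc]
      refine h.2 _ ?_
      have e : (σ : ℝ) * om μ (b + j) + ((-σ : ℤ) : ℝ) * om μ b = σ * (om μ (b + j) - om μ b) := by
        push_cast
        ring
      rw [e, abs_mul, abs_one hσ, one_mul, abs_of_nonneg h4]
      linarith
    · rw [dv_add_zero, dv_add_zero, dv_single, dv_single, add_assoc]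
      refine h.2 _ ?_
      have e : (σ : ℝ) * om μ b + ((-σ : ℤ) : ℝ) * om μ (b + j)
          = -(σ * (om μ (b + j) - om μ b)) := by
        push_cast
        ring
      rw [e, abs_neg, abs_mul, abs_one hσ, one_mul, abs_of_nonneg h4]
      linarith
  refine ((h1.union h2).union hbig).mono ?_
  rintro k ⟨hk, a, b, ha, hb, hkk⟩
  rcases le_total b a with hab | hab
  · obtain ⟨j, rfl⟩ := Nat.exists_eq_add_of_le hab
    rcases le_or_gt C j with h | h
    · right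
      exact ⟨b, j, h, Or.inl hkk⟩
    · left
      left
      rw [mem_iUnion₂]
      exact ⟨j, h, hk, b, hb, hkk⟩
  · obtain ⟨j, rfl⟩ := Nat.exists_eq_add_of_le hab
    rcases le_or_gt C j with h | h
    · right
      exact ⟨a, j, h, Or.inr hkk⟩
    · left
      right
      rw [mem_iUnion₂]
      refine ⟨j, h, hk, a, ha, ?_⟩
      rw [hkk, neg_neg, add_assoc, add_assoc]
      congr 1
      exact add_comm _ _

/-- The family with low part `l` and two more indices. -/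
theorem LB.two {μ₀ : ℝ} (hμ₀ : Nondeg μ₀) {l : ℕ →₀ ℤ} (hl : l 0 = 0) {σ τ : ℤ} (hσ : |σ| ≤ 1)
    (hτ : |τ| ≤ 1) : LB μ₀ {k | k ≠ 0 ∧ ∃ a b, 1 ≤ a ∧ 1 ≤ b ∧
      k = l + Finsupp.single a σ + Finsupp.single b τ} := by
  have hcase : ∀ z : ℤ, |z| ≤ 1 → z = 0 ∨ |z| = 1 := by
    intro z hz
    rcases Int.abs_le_one_iff.1 hz with h | h | h
    · exact Or.inl h
    · right
      rw [h]
      rfl
    · right
      rw [h]
      rfl
  rcases hcase σ hσ with h | h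
  · subst h
    rcases hcase τ hτ with h | h
    · subst h
      refine (LB.finite (S := {k | k ≠ 0 ∧ k = l}) ((Set.finite_singleton l).subset ?_) ?_).mono ?_
      · rintro k ⟨-, rfl⟩
        rfl
      · rintro k ⟨hk, rfl⟩
        exact hμ₀.2 k 0 hl (Or.inl hk)
      · rintro k ⟨hk, a, b, -, -, rfl⟩
        refine ⟨hk, ?_⟩
        simp
    · refine (LB.one hμ₀ hl h).mono ?_
      rintro k ⟨hk, a, b, -, hb, rfl⟩
      refine ⟨hk, b, hb, ?_⟩
      simp
  · rcases hcase τ hτ with h' | h'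
    · subst h'
      refine (LB.one hμ₀ hl h).mono ?_
      rintro k ⟨hk, a, b, ha, -, rfl⟩
      refine ⟨hk, a, ha, ?_⟩
      simp
    · have : τ = σ ∨ τ = -σ := abs_eq_abs.1 (h'.trans h.symm)
      rcases this with rfl | rfl
      · exact LB.same hμ₀ hl h
      · exact LB.opp hμ₀ hl h

/-- The combination of a list of indices. -/
noncomputable def comb {q : ℕ} (s : Fin q → ℤ) (m : Fin q → ℕ) : ℕ →₀ ℤ :=
  ∑ i, Finsupp.single (m i) (s i)

theorem dv_comb (μ : ℝ) {q : ℕ} (s : Fin q → ℤ) (m : Fin q → ℕ) :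
    dv μ (comb s m) 0 = ∑ i, (s i : ℝ) * om μ (m i) := by
  unfold comb
  have h : ∀ S : Finset (Fin q), dv μ (∑ i ∈ S, Finsupp.single (m i) (s i)) 0
      = ∑ i ∈ S, (s i : ℝ) * om μ (m i) := by
    intro S
    induction S using Finset.induction_on with
    | empty =>
      unfold dv
      simp
    | insert a S ha ih => rw [Finset.sum_insert ha, Finset.sum_insert ha, dv_add_zero, ih, dv_single]
  exact h _

theorem comb_apply {q : ℕ} (s : Fin q → ℤ) (m : Fin q → ℕ) (c : ℕ) :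
    comb s m c = ∑ i, if m i = c then s i else 0 := by
  unfold comb
  rw [Finsupp.finsetSum_apply]
  exact Finset.sum_congr rfl fun i _ => by rw [Finsupp.single_apply]

/-- **All divisors with `q` indices, at most two of them `≥ M`.** -/
theorem LB.main {μ₀ : ℝ} (hμ₀ : Nondeg μ₀) (q M : ℕ) :
    LB μ₀ {k | k ≠ 0 ∧ ∃ (s : Fin q → ℤ) (m : Fin q → ℕ), (∀ i, |s i| ≤ 1) ∧ (∀ i, 1 ≤ m i) ∧
      (Finset.univ.filter fun i => M ≤ m i).card ≤ 2 ∧ k = comb s m} := by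
  classical
  -- low parts
  set F : (Fin q → Fin 3) × (Fin q → Fin (M + 1)) → (ℕ →₀ ℤ) := fun p =>
    comb (fun i => if (p.2 i : ℕ) = 0 then 0 else ((p.1 i : ℕ) : ℤ) - 1) (fun i => (p.2 i : ℕ))
    with hF
  have hfin : (Set.range F).Finite := Set.finite_range F
  have hF0 : ∀ l ∈ Set.range F, l 0 = 0 := by
    rintro l ⟨p, rfl⟩
    rw [hF]
    simp only
    rw [comb_apply]
    refine Finset.sum_eq_zero fun i _ => ?_
    split_ifs
    all_goals rfl
  have h1 : LB μ₀ (⋃ l ∈ Set.range F, ⋃ σ ∈ Set.Icc (-1 : ℤ) 1, ⋃ τ ∈ Set.Icc (-1 : ℤ) 1,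
      {k | k ≠ 0 ∧ ∃ a b, 1 ≤ a ∧ 1 ≤ b ∧ k = l + Finsupp.single a σ + Finsupp.single b τ}) :=
    LB.biUnion hfin fun l hl => LB.biUnion (Set.finite_Icc _ _) fun σ hσ =>
      LB.biUnion (Set.finite_Icc _ _) fun τ hτ =>
        LB.two hμ₀ (hF0 l hl) (abs_le.2 ⟨hσ.1, hσ.2⟩) (abs_le.2 ⟨hτ.1, hτ.2⟩)
  refine h1.mono ?_
  rintro k ⟨hk, s, m, hs, hm, hcard, rfl⟩
  set H := Finset.univ.filter fun i => M ≤ m i with hH
  -- the low part
  obtain ⟨p, hp⟩ : ∃ p, F p = ∑ i ∈ Hᶜ, Finsupp.single (m i) (s i) := by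
    have hs' : ∀ i, (s i + 1).toNat < 3 := fun i => by
      have := abs_le.1 (hs i)
      omega
    refine ⟨(fun i => if i ∈ H then 1 else ⟨(s i + 1).toNat, hs' i⟩,
      fun i => if h : i ∈ H then 0 else ⟨m i, ?_⟩), ?_⟩
    · have : ¬ M ≤ m i := fun hM => h (by rw [hH]; simpa using hM)
      omega
    · rw [hF]
      simp only
      unfold comb
      rw [← Finset.sum_compl_add_sum H]
      have e1 : ∑ i ∈ H, Finsupp.single
          (((if h : i ∈ H then 0 else ⟨m i, by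
              have : ¬ M ≤ m i := fun hM => h (by rw [hH]; simpa using hM)
              omega⟩ : Fin (M + 1)) : ℕ))
          (if (((if h : i ∈ H then 0 else ⟨m i, by
              have : ¬ M ≤ m i := fun hM => h (by rw [hH]; simpa using hM)
              omega⟩ : Fin (M + 1)) : ℕ)) = 0 then (0 : ℤ)
            else (((if i ∈ H then (1 : Fin 3) else ⟨(s i + 1).toNat, hs' i⟩ : Fin 3) : ℕ) : ℤ) - 1)
          = 0 := by
        refine Finset.sum_eq_zero fun i hi => ?_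
        rw [dif_pos hi]
        simp
      rw [e1, add_zero]
      refine Finset.sum_congr rfl fun i hi => ?_
      have hi' : i ∉ H := Finset.mem_compl.1 hi
      beta_reduce
      rw [dif_neg hi', if_neg hi']
      have hmi := hm i
      have := abs_le.1 (hs i)
      simp only
      rw [if_neg (by omega)]
      congr 1
      rw [Int.toNat_of_nonneg (by omega)]
      ring
  have hsplit : comb s m = F p + ∑ i ∈ H, Finsupp.single (m i) (s i) := by
    unfold comb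
    rw [hp, Finset.sum_compl_add_sum]
  simp only [mem_iUnion]
  have hIcc : ∀ i, s i ∈ Set.Icc (-1 : ℤ) 1 := fun i => ⟨(abs_le.1 (hs i)).1, (abs_le.1 (hs i)).2⟩
  rcases Nat.lt_or_ge H.card 1 with h0 | h0
  · have hH0 : H = ∅ := Finset.card_eq_zero.1 (by omega)
    refine ⟨F p, ⟨p, rfl⟩, 0, ⟨by norm_num, by norm_num⟩, 0, ⟨by norm_num, by norm_num⟩, hk, 1, 1,
      le_rfl, le_rfl, ?_⟩
    rw [hsplit, hH0]
    simp
  rcases Nat.lt_or_ge H.card 2 with h2 | h2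
  · obtain ⟨i, hi⟩ := Finset.card_eq_one.1 (show H.card = 1 by omega)
    refine ⟨F p, ⟨p, rfl⟩, s i, hIcc i, 0, ⟨by norm_num, by norm_num⟩, hk, m i, 1,
      hm i, le_rfl, ?_⟩
    rw [hsplit, hi]
    simp
  · obtain ⟨i, i', hne, hi⟩ := Finset.card_eq_two.1 (show H.card = 2 by omega)
    refine ⟨F p, ⟨p, rfl⟩, s i, hIcc i, s i', hIcc i', hk, m i, m i', hm i, hm i', ?_⟩
    rw [hsplit, hi, Finset.sum_pair hne, add_assoc]

/-- **The small divisors.** Let `μ₀` be outside a countable set. For all `r`, `M` there is `γ > 0`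
with `|∑ s_i ω_{m_i}(μ)| ≥ γ` for all `μ` near `μ₀`, all signs `s_i` and all `m_i ≥ 1`, at most two of
them `≥ M`, at most `r` in number, provided that the signs do not cancel on each value. -/
theorem small_div {μ₀ : ℝ} (hμ₀ : Nondeg μ₀) (r M : ℕ) :
    ∃ γ : ℝ, 0 < γ ∧ γ ≤ 1 ∧ ∀ᶠ μ in 𝓝 μ₀, 0 < μ ∧ ∀ q ≤ r, ∀ (s : Fin q → ℤ) (m : Fin q → ℕ),
      (∀ i, |s i| ≤ 1) → (∀ i, 1 ≤ m i) → (Finset.univ.filter fun i => M ≤ m i).card ≤ 2 →
      (∃ c, (∑ i, if m i = c then s i else 0) ≠ 0) → γ ≤ |∑ i, (s i : ℝ) * om μ (m i)| := by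
  have h1 : LB μ₀ (⋃ q ∈ Set.Iic r, {k | k ≠ 0 ∧ ∃ (s : Fin q → ℤ) (m : Fin q → ℕ),
      (∀ i, |s i| ≤ 1) ∧ (∀ i, 1 ≤ m i) ∧
      (Finset.univ.filter fun i => M ≤ m i).card ≤ 2 ∧ k = comb s m}) :=
    LB.biUnion (Set.finite_Iic r) fun q _ => LB.main hμ₀ q M
  obtain ⟨γ, hγ, h⟩ := h1
  refine ⟨min γ 1, by positivity, min_le_right _ _, ?_⟩
  filter_upwards [h, lt_mem_nhds hμ₀.1] with μ h hμ
  refine ⟨hμ, fun q hq s m hs hm hc hne => ?_⟩
  refine (min_le_left _ _).trans ?_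
  have h2 := h (comb s m) (by
    simp only [mem_iUnion]
    refine ⟨q, hq, ?_, s, m, hs, hm, hc, rfl⟩
    obtain ⟨c, hc'⟩ := hne
    intro h0
    apply hc'
    rw [← comb_apply, h0]
    rfl)
  rwa [dv_comb] at h2

/-! ### Almost surely -/

/-- Almost every `z` is good. -/
theorem std_nondeg {m : ℕ} (hm : 1 ≤ m) :
    ∀ᵐ z ∂A.stdComplexGaussian, z ≠ 0 ∧ Nondeg (m * ‖z‖ ^ (2 * m)) := by
  have hsub : {z : ℂ | ¬ (z ≠ 0 ∧ Nondeg (m * ‖z‖ ^ (2 * m)))} ⊆ {z : ℂ | ‖z‖ = 0} ∪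
      ⋃ μ ∈ {μ : ℝ | 0 < μ ∧ ¬ Nondeg μ}, {z : ℂ | ‖z‖ = (μ / m) ^ (((2 * m : ℕ) : ℝ)⁻¹)} := by
    intro z hz
    by_cases h0 : z = 0
    · left
      simp [h0]
    right
    have hm0 : (0 : ℝ) < m := by exact_mod_cast hm
    have hz0 : 0 < ‖z‖ := norm_pos_iff.2 h0
    have hng : ¬ Nondeg (m * ‖z‖ ^ (2 * m)) := fun hg => hz ⟨h0, hg⟩
    simp only [mem_iUnion]
    refine ⟨m * ‖z‖ ^ (2 * m), ⟨by positivity, hng⟩, ?_⟩
    simp only [mem_ofPred_eq]
    rw [mul_div_cancel_left₀ _ hm0.ne', Real.pow_rpow_inv_natCast hz0.le (by omega)]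
  refine measure_mono_null hsub (measure_union_null (std_sphere 0) ?_)
  exact (measure_biUnion_null_iff nondeg_countable).2 fun μ _ => std_sphere _

/-- **Almost surely the frequency `m |g₀|^{2m}` is non-degenerate.** -/
theorem ae_nondeg {Ω : Type*} [MeasurableSpace Ω] {P : Measure Ω} {g : Ω → ℂ} (hm : Measurable g)
    (hg : P.map g = A.stdComplexGaussian) {m : ℕ} (h1 : 1 ≤ m) :
    ∀ᵐ ω ∂P, g ω ≠ 0 ∧ Nondeg (m * ‖g ω‖ ^ (2 * m)) := by
  have h := std_nondeg h1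
  rw [← hg] at h
  exact ae_of_ae_map hm.aemeasurable h

end Vale.Agent.P139.R2D
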